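import Mathlib

set_option autoImplicit false

open MeasureTheory Measure Module Set
open scoped ENNReal RealInnerProductSpace

noncomputable section

namespace Crest.Agent.Lib.Cyl

abbrev E2 := EuclideanSpace ℝ (Fin 2)
abbrev E3 := EuclideanSpace ℝ (Fin 3)

/-- Closed coordinate boxes of the Euclidean plane. -/
lemma vol_box (a₀ b₀ a₁ b₁ : ℝ) :
    volume {v : E2 | a₀ ≤ v 0 ∧ v 0 ≤ b₀ ∧ a₁ ≤ v 1 ∧ v 1 ≤ b₁} =
      ENNReal.ofReal (b₀ - a₀) * ENNReal.ofReal (b₁ - a₁) := by
  have h := (EuclideanSpace.volume_preserving_symm_measurableEquiv_toLp (Fin 2)).measure_preimage_equiv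
    (Set.Icc ![a₀, a₁] ![b₀, b₁])
  rw [Real.volume_Icc_pi, Fin.prod_univ_two] at h
  simp only [Matrix.cons_val_zero, Matrix.cons_val_one] at h
  rw [← h]
  congr 1
  ext v
  simp only [mem_setOf_eq, mem_preimage, mem_Icc, Pi.le_def, Fin.forall_fin_two]
  simp only [Matrix.cons_val_zero, Matrix.cons_val_one]
  constructor
  · rintro ⟨h1, h2, h3, h4⟩
    exact ⟨⟨h1, h3⟩, ⟨h2, h4⟩⟩
  · rintro ⟨⟨h1, h3⟩, ⟨h2, h4⟩⟩
    exact ⟨h1, h2, h3, h4⟩

/-- Half-open coordinate boxes of the Euclidean plane. -/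
lemma vol_box_Ico (a₀ b₀ a₁ b₁ : ℝ) :
    volume {v : E2 | a₀ ≤ v 0 ∧ v 0 < b₀ ∧ a₁ ≤ v 1 ∧ v 1 < b₁} =
      ENNReal.ofReal (b₀ - a₀) * ENNReal.ofReal (b₁ - a₁) := by
  have h := (EuclideanSpace.volume_preserving_symm_measurableEquiv_toLp (Fin 2)).measure_preimage_equiv
    (Set.univ.pi fun i => Set.Ico (![a₀, a₁] i) (![b₀, b₁] i))
  rw [Real.volume_pi_Ico, Fin.prod_univ_two] at h
  simp only [Matrix.cons_val_zero, Matrix.cons_val_one] at h
  rw [← h]
  congr 1
  ext v
  simp only [mem_setOf_eq, mem_preimage, mem_pi, mem_univ, forall_true_left, Fin.forall_fin_two, mem_Ico]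
  simp only [Matrix.cons_val_zero, Matrix.cons_val_one]
  constructor
  · rintro ⟨h1, h2, h3, h4⟩
    exact ⟨⟨h1, h2⟩, ⟨h3, h4⟩⟩
  · rintro ⟨⟨h1, h3⟩, ⟨h2, h4⟩⟩
    exact ⟨h1, h3, h2, h4⟩

/-- The standard triangle of the plane. -/
def stdTri : Set E2 := {v | 0 ≤ v 0 ∧ 0 ≤ v 1 ∧ v 0 + v 1 ≤ 1}

/-- The standard square of the plane. -/
def stdSq : Set E2 := {v | 0 ≤ v 0 ∧ v 0 ≤ 1 ∧ 0 ≤ v 1 ∧ v 1 ≤ 1}

lemma vol_stdSq : volume stdSq = 1 := by
  have := vol_box 0 1 0 1
  simpa [stdSq] using this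

lemma isClosed_stdTri : IsClosed stdTri := by
  have h0 : Continuous fun v : E2 => v 0 := by fun_prop
  have h1 : Continuous fun v : E2 => v 1 := by fun_prop
  unfold stdTri
  refine (isClosed_le continuous_const h0).inter ((isClosed_le continuous_const h1).inter ?_)
  exact isClosed_le (h0.add h1) continuous_const

lemma vol_line : volume {v : E2 | v 0 + v 1 = 1} = 0 := by
  let f : E2 →ₗ[ℝ] ℝ :=
    (EuclideanSpace.proj (0 : Fin 2) : E2 →L[ℝ] ℝ).toLinearMap +
      (EuclideanSpace.proj (1 : Fin 2) : E2 →L[ℝ] ℝ).toLinearMap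
  have hf : ∀ v : E2, f v = v 0 + v 1 := fun v => by simp [f]
  let A : AffineSubspace ℝ E2 := AffineSubspace.mk' (!₂[(1 : ℝ), 0] : E2) (LinearMap.ker f)
  have hA : A ≠ ⊤ := by
    intro h
    have h0 : (0 : E2) ∈ A := by rw [h]; trivial
    have := (AffineSubspace.mem_mk' ).1 h0
    rw [LinearMap.mem_ker, hf] at this
    simp at this
  have := Measure.addHaar_affineSubspace (volume : Measure E2) A hA
  refine measure_mono_null ?_ this
  intro v hv
  have hv' : v 0 + v 1 = 1 := hv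
  refine (AffineSubspace.mem_mk').2 ?_
  rw [LinearMap.mem_ker, hf]
  simp
  linarith

lemma vol_stdTri : volume stdTri = ENNReal.ofReal (1 / 2) := by
  -- the reflection of the triangle in the centre of the square
  let c : E2 := !₂[(1 : ℝ), 1]
  let T' : Set E2 := (fun v => (-c) + v) ⁻¹' (-stdTri)
  have hT' : volume T' = volume stdTri := by
    simp only [T']
    rw [measure_preimage_add, Measure.measure_neg]
  have hmem : ∀ v : E2, v ∈ T' ↔ (0 ≤ 1 - v 0 ∧ 0 ≤ 1 - v 1 ∧ (1 - v 0) + (1 - v 1) ≤ 1) := by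
    intro v
    simp [T', stdTri, c]
    intro _ _
    constructor <;> intro h <;> linarith
  have hU : stdTri ∪ T' = stdSq := by
    ext v
    simp only [mem_union, hmem]
    simp only [stdTri, stdSq, mem_setOf_eq]
    constructor
    · rintro (⟨h1, h2, h3⟩ | ⟨h1, h2, h3⟩) <;> refine ⟨?_, ?_, ?_, ?_⟩ <;> linarith
    · rintro ⟨h1, h2, h3, h4⟩
      rcases le_total (v 0 + v 1) 1 with h | h
      · exact Or.inl ⟨h1, h3, h⟩
      · exact Or.inr ⟨by linarith, by linarith, by linarith⟩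
  have hI : volume (stdTri ∩ T') = 0 := by
    refine measure_mono_null ?_ vol_line
    intro v hv
    have h1 := hv.1
    have h2 := (hmem v).1 hv.2
    simp only [stdTri, mem_setOf_eq] at h1
    show v 0 + v 1 = 1
    linarith [h1.2.2, h2.2.2]
  have hT'm : MeasurableSet T' := by
    have : T' = {v | 0 ≤ 1 - v 0 ∧ 0 ≤ 1 - v 1 ∧ (1 - v 0) + (1 - v 1) ≤ 1} := by
      ext v; exact hmem v
    rw [this]
    have h0 : Continuous fun v : E2 => v 0 := by fun_prop
    have h1 : Continuous fun v : E2 => v 1 := by fun_prop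
    refine IsClosed.measurableSet ?_
    have h2 : Continuous fun v : E2 => 1 - v 0 := continuous_const.sub h0
    have h3 : Continuous fun v : E2 => 1 - v 1 := continuous_const.sub h1
    exact (isClosed_le continuous_const h2).inter
      ((isClosed_le continuous_const h3).inter (isClosed_le (h2.add h3) continuous_const))
  have h := measure_union_add_inter (μ := volume) stdTri hT'm
  rw [hU, hI, add_zero, hT', vol_stdSq] at h
  have hfin : volume stdTri ≠ ⊤ := by
    intro h'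
    rw [h'] at h
    simp at h
  -- 1 = x + x
  have hx : (volume stdTri).toReal = 1 / 2 := by
    have := congrArg ENNReal.toReal h
    rw [ENNReal.toReal_add hfin hfin] at this
    simp at this
    linarith
  rw [← ENNReal.ofReal_toReal hfin, hx]

/-- The linear map `v ↦ v 0 • A + v 1 • B` of the plane into an inner product space. -/
def planeMap {V : Type*} [NormedAddCommGroup V] [InnerProductSpace ℝ V] (A B : V) : E2 →ₗ[ℝ] V :=
  ((EuclideanSpace.proj (0 : Fin 2) : E2 →L[ℝ] ℝ).toLinearMap).smulRight A +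
    ((EuclideanSpace.proj (1 : Fin 2) : E2 →L[ℝ] ℝ).toLinearMap).smulRight B

@[simp] lemma planeMap_apply {V : Type*} [NormedAddCommGroup V] [InnerProductSpace ℝ V] (A B : V)
    (v : E2) : planeMap A B v = v 0 • A + v 1 • B := by
  simp [planeMap]

/-- The Gram determinant of two vectors. -/
def gram2 {V : Type*} [NormedAddCommGroup V] [InnerProductSpace ℝ V] (A B : V) : ℝ :=
  ‖A‖ ^ 2 * ‖B‖ ^ 2 - ⟪A, B⟫ ^ 2

lemma gram2_nonneg {V : Type*} [NormedAddCommGroup V] [InnerProductSpace ℝ V] (A B : V) :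
    0 ≤ gram2 A B := by
  unfold gram2
  have := abs_real_inner_le_norm A B
  have h2 : |⟪A, B⟫| ^ 2 ≤ (‖A‖ * ‖B‖) ^ 2 :=
    pow_le_pow_left₀ (abs_nonneg _) this 2
  rw [sq_abs] at h2
  nlinarith

lemma normDet_planeMap {V : Type*} [NormedAddCommGroup V] [InnerProductSpace ℝ V] (A B : V) :
    (planeMap A B).normDet = Real.sqrt (gram2 A B) := by
  have h := (planeMap A B).normDet_sq_eq_det_gram (EuclideanSpace.basisFun (Fin 2) ℝ)
  have h' : ((planeMap A B).normDet) ^ 2 = gram2 A B := by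
    have e0 : planeMap A B ((EuclideanSpace.basisFun (Fin 2) ℝ) 0) = A := by simp
    have e1 : planeMap A B ((EuclideanSpace.basisFun (Fin 2) ℝ) 1) = B := by simp
    simp only [Matrix.det_fin_two, Matrix.gram_apply, e0, e1] at h
    simp only [RCLike.ofReal_real_eq_id, id_eq] at h
    rw [h, gram2, real_inner_self_eq_norm_sq, real_inner_self_eq_norm_sq, real_inner_comm A B]
    ring
  rw [← h', Real.sqrt_sq (LinearMap.normDet_nonneg _)]

section Area

variable {V : Type*} [NormedAddCommGroup V] [InnerProductSpace ℝ V] [MeasurableSpace V] [BorelSpace V]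

lemma areaImage (f : E2 →ₗ[ℝ] V) (s : Set E2) :
    μHE[2] (f '' s) = ENNReal.ofReal f.normDet * volume s := by
  have := f.euclideanHausdorffMeasure_image_eq_normDet_mul_volume s
  simpa using this

lemma area_translate (c : V) (s : Set V) : μHE[2] ((fun y => c + y) '' s) = μHE[2] s := by
  have : Isometry (fun y : V => c + y) := (IsometryEquiv.addLeft c).isometry
  exact this.euclideanHausdorffMeasure_image s

/-- The closed parallelogram `C + [0,1]A + [0,1]B`. -/
def parSet (C A B : V) : Set V := {x | ∃ s ∈ Icc (0 : ℝ) 1, ∃ t ∈ Icc (0 : ℝ) 1, x = C + s • A + t • B}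

lemma parSet_eq_image (C A B : V) :
    parSet C A B = (fun y => C + y) '' (planeMap A B '' stdSq) := by
  ext x
  simp only [parSet, mem_setOf_eq, mem_image, stdSq, exists_exists_and_eq_and, planeMap_apply]
  constructor
  · rintro ⟨s, hs, t, ht, rfl⟩
    refine ⟨!₂[s, t], ?_, ?_⟩
    · simp [hs.1, hs.2, ht.1, ht.2]
    · simp [add_assoc]
  · rintro ⟨v, ⟨h1, h2, h3, h4⟩, rfl⟩
    exact ⟨v 0, ⟨h1, h2⟩, v 1, ⟨h3, h4⟩, by simp [add_assoc]⟩

theorem area_parSet (C A B : V) : μHE[2] (parSet C A B) = ENNReal.ofReal (Real.sqrt (gram2 A B)) := by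
  rw [parSet_eq_image, area_translate, areaImage, normDet_planeMap, vol_stdSq, mul_one]

/-- Convex combinations of three points. -/
lemma comb_mem_convexHull (p q r : V) {a b c : ℝ} (ha : 0 ≤ a) (hb : 0 ≤ b) (hc : 0 ≤ c)
    (h : a + b + c = 1) : a • p + b • q + c • r ∈ convexHull ℝ ({p, q, r} : Set V) := by
  have := (convex_convexHull ℝ ({p, q, r} : Set V)).sum_mem (t := (Finset.univ : Finset (Fin 3)))
    (w := ![a, b, c]) (z := ![p, q, r])
    (by intro i _; fin_cases i <;> simp [ha, hb, hc])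
    (by simp [Fin.sum_univ_three, h])
    (by intro i _; fin_cases i <;> (apply subset_convexHull; simp))
  simpa [Fin.sum_univ_three] using this

lemma mem_convexHull_three_iff (p q r x : V) :
    x ∈ convexHull ℝ ({p, q, r} : Set V) ↔
      ∃ a b : ℝ, 0 ≤ a ∧ 0 ≤ b ∧ a + b ≤ 1 ∧ x = p + a • (q - p) + b • (r - p) := by
  constructor
  · intro hx
    have hconv : Convex ℝ {x : V | ∃ a b : ℝ, 0 ≤ a ∧ 0 ≤ b ∧ a + b ≤ 1 ∧ x = p + a • (q - p) + b • (r - p)} := by
      intro x ⟨a, b, ha, hb, hab, hx⟩ y ⟨a', b', ha', hb', hab', hy⟩ α β hα hβ hαβ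
      refine ⟨α * a + β * a', α * b + β * b', by positivity, by positivity, ?_, ?_⟩
      · have : α * (a + b) + β * (a' + b') ≤ α * 1 + β * 1 := by gcongr
        nlinarith
      · rw [hx, hy]
        have : β = 1 - α := by linarith
        subst this
        module
    refine convexHull_min ?_ hconv hx
    intro y hy
    simp only [mem_insert_iff, mem_singleton_iff] at hy
    rcases hy with rfl | rfl | rfl
    · exact ⟨0, 0, le_rfl, le_rfl, by norm_num, by simp⟩
    · exact ⟨1, 0, by norm_num, le_rfl, by norm_num, by simp⟩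
    · exact ⟨0, 1, le_rfl, by norm_num, by norm_num, by simp⟩
  · rintro ⟨a, b, ha, hb, hab, rfl⟩
    have := comb_mem_convexHull p q r (a := 1 - a - b) (b := a) (c := b) (by linarith) ha hb (by ring)
    convert this using 1
    module

lemma tri_eq_image (p q r : V) :
    convexHull ℝ ({p, q, r} : Set V) = (fun y => p + y) '' (planeMap (q - p) (r - p) '' stdTri) := by
  ext x
  rw [mem_convexHull_three_iff]
  simp only [mem_image, stdTri, mem_setOf_eq, exists_exists_and_eq_and, planeMap_apply]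
  constructor
  · rintro ⟨a, b, ha, hb, hab, rfl⟩
    refine ⟨!₂[a, b], ?_, ?_⟩
    · simp [ha, hb, hab]
    · simp [add_assoc]
  · rintro ⟨v, ⟨h1, h2, h3⟩, rfl⟩
    exact ⟨v 0, v 1, h1, h2, h3, by simp [add_assoc]⟩

theorem area_tri (p q r : V) :
    μHE[2] (convexHull ℝ ({p, q, r} : Set V)) =
      ENNReal.ofReal (Real.sqrt (gram2 (q - p) (r - p)) / 2) := by
  rw [tri_eq_image, area_translate, areaImage, normDet_planeMap, vol_stdTri,
    ← ENNReal.ofReal_mul (Real.sqrt_nonneg _)]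
  congr 1
  ring

end Area

/-! ### Coordinates in three-space -/

lemma inner3 (a b : E3) : ⟪a, b⟫ = a 0 * b 0 + a 1 * b 1 + a 2 * b 2 := by
  simp [PiLp.inner_apply, Fin.sum_univ_three]
  ring

lemma normsq3 (a : E3) : ‖a‖ ^ 2 = a 0 ^ 2 + a 1 ^ 2 + a 2 ^ 2 := by
  rw [← real_inner_self_eq_norm_sq, inner3]
  ring

/-- The determinant of three vectors of three-space. -/
def det3 (a b c : E3) : ℝ :=
  a 0 * (b 1 * c 2 - b 2 * c 1) - a 1 * (b 0 * c 2 - b 2 * c 0) + a 2 * (b 0 * c 1 - b 1 * c 0)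

/-- Orthogonal projection along `U` (for `U ≠ 0`). -/
def proj3 (U y : E3) : E3 := y - (⟪y, U⟫ / ‖U‖ ^ 2) • U

lemma proj3_inner (U y : E3) (hU : U ≠ 0) : ⟪proj3 U y, U⟫ = 0 := by
  have h : ‖U‖ ^ 2 ≠ 0 := by
    have := norm_pos_iff.2 hU
    positivity
  simp only [proj3, inner_sub_left, inner_smul_left, real_inner_self_eq_norm_sq]
  simp
  field_simp
  ring

lemma proj3_sub (U y z : E3) : proj3 U (y - z) = proj3 U y - proj3 U z := by
  simp only [proj3, inner_sub_left]
  rw [sub_div, sub_smul]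
  abel

lemma proj3_add (U y z : E3) : proj3 U (y + z) = proj3 U y + proj3 U z := by
  simp only [proj3, inner_add_left]
  rw [add_div, add_smul]
  abel

lemma proj3_smul (U y : E3) (c : ℝ) : proj3 U (c • y) = c • proj3 U y := by
  simp only [proj3, inner_smul_left, smul_sub, smul_smul]
  congr 2
  simp
  ring

lemma gram2_proj3 (U A B : E3) (hU : U ≠ 0) :
    gram2 (proj3 U A) (proj3 U B) = det3 A B U ^ 2 / ‖U‖ ^ 2 := by
  have h : ‖U‖ ^ 2 ≠ 0 := by
    have := norm_pos_iff.2 hU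
    positivity
  have hn : ‖U‖ ^ 2 = U 0 ^ 2 + U 1 ^ 2 + U 2 ^ 2 := normsq3 U
  have e1 : ‖proj3 U A‖ ^ 2 = ‖A‖ ^ 2 - ⟪A, U⟫ ^ 2 / ‖U‖ ^ 2 := by
    rw [← real_inner_self_eq_norm_sq, ← real_inner_self_eq_norm_sq A]
    simp only [proj3, inner_sub_left, inner_sub_right, inner_smul_left, inner_smul_right,
      real_inner_self_eq_norm_sq, real_inner_comm A U]
    simp
    field_simp
    ring
  have e2 : ‖proj3 U B‖ ^ 2 = ‖B‖ ^ 2 - ⟪B, U⟫ ^ 2 / ‖U‖ ^ 2 := by
    rw [← real_inner_self_eq_norm_sq, ← real_inner_self_eq_norm_sq B]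
    simp only [proj3, inner_sub_left, inner_sub_right, inner_smul_left, inner_smul_right,
      real_inner_self_eq_norm_sq, real_inner_comm B U]
    simp
    field_simp
    ring
  have e3 : ⟪proj3 U A, proj3 U B⟫ = ⟪A, B⟫ - ⟪A, U⟫ * ⟪B, U⟫ / ‖U‖ ^ 2 := by
    simp only [proj3, inner_sub_left, inner_sub_right, inner_smul_left, inner_smul_right,
      real_inner_self_eq_norm_sq, real_inner_comm A U, real_inner_comm B U]
    simp
    field_simp
    ring
  unfold gram2
  rw [e1, e2, e3]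
  field_simp
  simp only [hn, normsq3 A, normsq3 B, inner3, det3]
  ring

lemma det3_sub_left (a a' b c : E3) : det3 (a - a') b c = det3 a b c - det3 a' b c := by
  simp only [det3, PiLp.sub_apply]; ring

lemma det3_sub_mid (a b b' c : E3) : det3 a (b - b') c = det3 a b c - det3 a b' c := by
  simp only [det3, PiLp.sub_apply]; ring

lemma det3_smul_left (k : ℝ) (a b c : E3) : det3 (k • a) b c = k * det3 a b c := by
  simp only [det3, PiLp.smul_apply, smul_eq_mul]; ring

lemma det3_smul_mid (k : ℝ) (a b c : E3) : det3 a (k • b) c = k * det3 a b c := by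
  simp only [det3, PiLp.smul_apply, smul_eq_mul]; ring

lemma proj3_decomp (U y : E3) : y = proj3 U y + (⟪y, U⟫ / ‖U‖ ^ 2) • U := by
  simp [proj3]

/-- Area of a projected triangle. -/
theorem area_proj_tri (U P Q R : E3) (hU : U ≠ 0) :
    μHE[2] (convexHull ℝ ({proj3 U P, proj3 U Q, proj3 U R} : Set E3)) =
      ENNReal.ofReal (|det3 (Q - P) (R - P) U| / (2 * ‖U‖)) := by
  rw [area_tri, ← proj3_sub, ← proj3_sub, gram2_proj3 _ _ _ hU, Real.sqrt_div (sq_nonneg _),
    Real.sqrt_sq_eq_abs, Real.sqrt_sq (norm_nonneg _)]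
  congr 1
  have := norm_pos_iff.2 hU
  field_simp

/-- Area of a projected parallelogram. -/
theorem area_proj_par (U C A B : E3) (hU : U ≠ 0) :
    μHE[2] (parSet (proj3 U C) (proj3 U A) (proj3 U B)) =
      ENNReal.ofReal (|det3 A B U| / ‖U‖) := by
  rw [area_parSet, gram2_proj3 _ _ _ hU, Real.sqrt_div (sq_nonneg _),
    Real.sqrt_sq_eq_abs, Real.sqrt_sq (norm_nonneg _)]

/-- The unit vector in the direction `U`. -/
def unit3 (U : E3) : E3 := ‖U‖⁻¹ • U

lemma norm_unit3 (U : E3) (hU : U ≠ 0) : ‖unit3 U‖ = 1 := by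
  have := norm_pos_iff.2 hU
  simp [unit3, norm_smul, this.ne']

lemma inner_unit3 (U x : E3) (h : ⟪x, U⟫ = 0) : ⟪x, unit3 U⟫ = 0 := by
  simp [unit3, inner_smul_right, h]

lemma smul_unit3 (U : E3) (hU : U ≠ 0) (t : ℝ) : t • U = (t * ‖U‖) • unit3 U := by
  have := norm_pos_iff.2 hU
  simp only [unit3, smul_smul]
  congr 1
  field_simp

/-- The cylinder over a triangle in direction `U`. -/
def cylTri (U P Q R : E3) : Set E3 :=
  {x | ∃ b ∈ convexHull ℝ ({P, Q, R} : Set E3), ∃ t : ℝ, x = b + t • U}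

lemma proj3_tri_mem (U P Q R b : E3) (hb : b ∈ convexHull ℝ ({P, Q, R} : Set E3)) :
    proj3 U b ∈ convexHull ℝ ({proj3 U P, proj3 U Q, proj3 U R} : Set E3) := by
  rw [mem_convexHull_three_iff] at hb ⊢
  obtain ⟨a, c, ha, hc, hac, rfl⟩ := hb
  refine ⟨a, c, ha, hc, hac, ?_⟩
  rw [proj3_add, proj3_add, proj3_smul, proj3_smul, proj3_sub, proj3_sub]

/-- The normal form of a triangular cylinder: unit axis and base in the orthogonal plane. -/
theorem cylTri_subset (U P Q R : E3) (hU : U ≠ 0) :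
    cylTri U P Q R ⊆ {x | ∃ b ∈ convexHull ℝ ({proj3 U P, proj3 U Q, proj3 U R} : Set E3),
      ∃ t : ℝ, x = b + t • unit3 U} := by
  rintro x ⟨b, hb, t, rfl⟩
  refine ⟨proj3 U b, proj3_tri_mem U P Q R b hb, (⟪b, U⟫ / ‖U‖ ^ 2 + t) * ‖U‖, ?_⟩
  rw [← smul_unit3 U hU, add_smul, ← add_assoc, ← proj3_decomp]

/-- The cylinder over a parallelogram in direction `U`. -/
def cylPar (U C A B : E3) : Set E3 := {x | ∃ b ∈ parSet C A B, ∃ t : ℝ, x = b + t • U}

lemma proj3_par_mem (U C A B b : E3) (hb : b ∈ parSet C A B) :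
    proj3 U b ∈ parSet (proj3 U C) (proj3 U A) (proj3 U B) := by
  obtain ⟨s, hs, t, ht, rfl⟩ := hb
  refine ⟨s, hs, t, ht, ?_⟩
  rw [proj3_add, proj3_add, proj3_smul, proj3_smul]

theorem cylPar_subset (U C A B : E3) (hU : U ≠ 0) :
    cylPar U C A B ⊆ {x | ∃ b ∈ parSet (proj3 U C) (proj3 U A) (proj3 U B),
      ∃ t : ℝ, x = b + t • unit3 U} := by
  rintro x ⟨b, hb, t, rfl⟩
  refine ⟨proj3 U b, proj3_par_mem U C A B b hb, (⟪b, U⟫ / ‖U‖ ^ 2 + t) * ‖U‖, ?_⟩
  rw [← smul_unit3 U hU, add_smul, ← add_assoc, ← proj3_decomp]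

/-- The plain and the normalised two-dimensional Hausdorff measures differ by a positive
constant. -/
lemma exists_muH_eq : ∃ c : ℝ, 0 < c ∧ ∀ s : Set E3, (μH[(2 : ℝ)] s).toReal = c * (μHE[2] s).toReal := by
  set C := addHaarScalarFactor (volume : Measure (EuclideanSpace ℝ (Fin 2))) μH[(2 : ℕ)] with hC
  have hC0 : C ≠ 0 := addHaarScalarFactor_volume_hausdorffMeasure_ne_zero 2
  refine ⟨(C : ℝ)⁻¹, by positivity, fun s => ?_⟩
  rw [euclideanHausdorffMeasure_def]
  simp only [Measure.smul_apply, ← hC]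
  rw [ENNReal.smul_def, smul_eq_mul, ENNReal.toReal_mul]
  have : ((C : ENNReal)).toReal = C := by simp
  rw [this]
  have hC' : (C : ℝ) ≠ 0 := by exact_mod_cast hC0
  simp
  field_simp

end Crest.Agent.Lib.Cyl
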