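import Mathlib

set_option autoImplicit false

open Set

noncomputable section

namespace Crest.Agent.Lib.Cyl

/-! Real-variable lemmas for the tetrahedron cover: the interface inequality and the area sum. -/

/-- The gain parameter. -/
local notation "thA" => ((1 : ℝ) / 1000)

/-- The radial cap of a sector. -/
def capT (σ η : ℝ) : ℝ := 1 / 2 + thA ^ 2 * (σ ^ 2 + σ ^ 4) / 4 + 2 * thA ^ 3 + thA * η

lemma capT_ge (σ η : ℝ) (hη : 0 < η) : 1 / 2 ≤ capT σ η := by
  unfold capT
  have : 0 ≤ thA ^ 2 * (σ ^ 2 + σ ^ 4) / 4 := by positivity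
  have h2 : 0 ≤ 2 * thA ^ 3 := by norm_num
  have h3 : 0 ≤ thA * η := by positivity
  linarith

lemma abs_mul_le_of_abs_le_one (w u : ℝ) (hu : |u| ≤ 1) : |w * u| ≤ |w| := by
  rw [abs_mul]
  nlinarith [abs_nonneg w, abs_nonneg u]

/-- The interface inequality: a point of the tetrahedron cannot lie above the caps of both
its lower sector and its upper sector. -/
theorem iface_contra (x y t σ σ' η : ℝ) (hη : 0 < η) (hη' : η ≤ 1 / 1000000)
    (hy : |y| ≤ t) (hx : |x| ≤ 1 - t) (hσ : |σ| ≤ 1) (hσ' : |σ'| ≤ 1)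
    (hY : |y - σ * t - x * thA * (1 - σ ^ 2) / 2| ≤ η * (t - x * thA * σ + thA * η / 2))
    (hY' : |x - σ' * (1 - t) + y * thA * (1 - σ' ^ 2) / 2| ≤
      η * ((1 - t) + y * thA * σ' + thA * η / 2))
    (h1 : capT σ η < t - x * thA * σ) (h2 : capT σ' η < (1 - t) + y * thA * σ') : False := by
  have hT1 := capT_ge σ η hη
  have hT2 := capT_ge σ' η hη
  set a := t - 1 / 2 with ha
  have ht : t = 1 / 2 + a := by rw [ha]; ring
  have A1 : x * thA * σ < a := by linarith
  have A2 : a < y * thA * σ' := by linarith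
  have hxσ : |x * σ| ≤ |x| := abs_mul_le_of_abs_le_one x σ hσ
  have hyσ : |y * σ'| ≤ |y| := abs_mul_le_of_abs_le_one y σ' hσ'
  have hx1 : |x| ≤ 1 / 2 - a := by linarith
  have hy1 : |y| ≤ 1 / 2 + a := by linarith
  have B1 : -(thA * |x|) ≤ x * thA * σ := by
    have := neg_abs_le (x * σ)
    have e : x * thA * σ = thA * (x * σ) := by ring
    rw [e]
    have : thA * (-|x|) ≤ thA * (x * σ) := by
      apply mul_le_mul_of_nonneg_left _ (by norm_num)
      linarith
    linarith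
  have B2 : y * thA * σ' ≤ thA * |y| := by
    have := le_abs_self (y * σ')
    have e : y * thA * σ' = thA * (y * σ') := by ring
    rw [e]
    apply mul_le_mul_of_nonneg_left _ (by norm_num)
    linarith
  have B1' : x * thA * σ ≤ thA * |x| := by
    have := le_abs_self (x * σ)
    have e : x * thA * σ = thA * (x * σ) := by ring
    rw [e]
    apply mul_le_mul_of_nonneg_left _ (by norm_num)
    linarith
  have B2' : -(thA * |y|) ≤ y * thA * σ' := by
    have := neg_abs_le (y * σ')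
    have e : y * thA * σ' = thA * (y * σ') := by ring
    rw [e]
    have : thA * (-|y|) ≤ thA * (y * σ') := by
      apply mul_le_mul_of_nonneg_left _ (by norm_num)
      linarith
    linarith
  have hxb : |x| ≤ 501 / 1000 := by
    have : |x| ≤ 1 / 2 + thA * |x| := by linarith
    linarith
  have hyb : |y| ≤ 501 / 1000 := by
    have : |y| ≤ 1 / 2 + thA * |y| := by linarith
    linarith
  have hab : |a| ≤ 501 / 1000 * thA := by
    rw [abs_le]
    constructor
    · have : thA * |x| ≤ thA * (501 / 1000) := by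
        apply mul_le_mul_of_nonneg_left hxb (by norm_num)
      linarith
    · have : thA * |y| ≤ thA * (501 / 1000) := by
        apply mul_le_mul_of_nonneg_left hyb (by norm_num)
      linarith
  -- sizes of the thin-sector coordinates
  set Y := y - σ * t - x * thA * (1 - σ ^ 2) / 2 with hYdef
  set Y' := x - σ' * (1 - t) + y * thA * (1 - σ' ^ 2) / 2 with hY'def
  have ht1 : t - x * thA * σ + thA * η / 2 ≤ 503 / 1000 := by
    have h3 : thA * |x| ≤ thA * (501 / 1000) := mul_le_mul_of_nonneg_left hxb (by norm_num)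
    have h4 : a ≤ 501 / 1000 * thA := (le_abs_self a).trans hab
    have h5 : thA * η / 2 ≤ thA * (1 / 1000000) / 2 := by
      have := mul_le_mul_of_nonneg_left hη' (by norm_num : (0 : ℝ) ≤ thA)
      linarith
    linarith
  have ht2 : (1 - t) + y * thA * σ' + thA * η / 2 ≤ 503 / 1000 := by
    have h3 : thA * |y| ≤ thA * (501 / 1000) := mul_le_mul_of_nonneg_left hyb (by norm_num)
    have h4 : -a ≤ 501 / 1000 * thA := (neg_le_abs a).trans hab
    have h5 : thA * η / 2 ≤ thA * (1 / 1000000) / 2 := by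
      have := mul_le_mul_of_nonneg_left hη' (by norm_num : (0 : ℝ) ≤ thA)
      linarith
    linarith
  have hYb : |Y| ≤ 503 / 1000 * η := by
    calc |Y| ≤ η * (t - x * thA * σ + thA * η / 2) := hY
      _ ≤ η * (503 / 1000) := mul_le_mul_of_nonneg_left ht1 hη.le
      _ = 503 / 1000 * η := by ring
  have hY'b : |Y'| ≤ 503 / 1000 * η := by
    calc |Y'| ≤ η * ((1 - t) + y * thA * σ' + thA * η / 2) := hY'
      _ ≤ η * (503 / 1000) := mul_le_mul_of_nonneg_left ht2 hη.le
      _ = 503 / 1000 * η := by ring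
  have hσ2 : σ ^ 2 ≤ 1 := by
    have := sq_abs σ
    rw [← this]
    nlinarith [abs_nonneg σ]
  have hσ'2 : σ' ^ 2 ≤ 1 := by
    have := sq_abs σ'
    rw [← this]
    nlinarith [abs_nonneg σ']
  have habs1 : |1 - σ ^ 2| ≤ 1 := by
    rw [abs_le]; constructor <;> nlinarith [sq_nonneg σ]
  have habs2 : |1 - σ' ^ 2| ≤ 1 := by
    rw [abs_le]; constructor <;> nlinarith [sq_nonneg σ']
  -- the errors
  set E : ℝ := 752 / 1000 * thA + 503 / 1000 * η with hE
  set e₁ := y - σ / 2 with he₁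
  set e₂ := x - σ' / 2 with he₂
  have he₁b : |e₁| ≤ E := by
    have e : e₁ = σ * a + x * thA * (1 - σ ^ 2) / 2 + Y := by
      simp only [he₁, hYdef, ht]; ring
    rw [e]
    have h1 : |σ * a| ≤ |a| := by rw [mul_comm]; exact abs_mul_le_of_abs_le_one a σ hσ
    have h2 : |x * thA * (1 - σ ^ 2) / 2| ≤ |x| * thA / 2 := by
      have : x * thA * (1 - σ ^ 2) / 2 = (x * thA / 2) * (1 - σ ^ 2) := by ring
      rw [this]
      refine (abs_mul_le_of_abs_le_one _ _ habs1).trans (le_of_eq ?_)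
      rw [abs_div, abs_mul, abs_of_pos (by norm_num : (0:ℝ) < thA)]
      norm_num
    have h3 : |x| * thA / 2 ≤ (501 / 1000) * thA / 2 := by
      apply div_le_div_of_nonneg_right _ (by norm_num)
      exact mul_le_mul_of_nonneg_right hxb (by norm_num)
    calc |σ * a + x * thA * (1 - σ ^ 2) / 2 + Y| ≤ |σ * a + x * thA * (1 - σ ^ 2) / 2| + |Y| := abs_add_le _ _
      _ ≤ |σ * a| + |x * thA * (1 - σ ^ 2) / 2| + |Y| := by gcongr; exact abs_add_le _ _
      _ ≤ E := by
        simp only [hE]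
        linarith
  have he₂b : |e₂| ≤ E := by
    have e : e₂ = -(σ' * a) - y * thA * (1 - σ' ^ 2) / 2 + Y' := by
      simp only [he₂, hY'def, ht]; ring
    rw [e]
    have h1 : |σ' * a| ≤ |a| := by rw [mul_comm]; exact abs_mul_le_of_abs_le_one a σ' hσ'
    have h2 : |y * thA * (1 - σ' ^ 2) / 2| ≤ |y| * thA / 2 := by
      have : y * thA * (1 - σ' ^ 2) / 2 = (y * thA / 2) * (1 - σ' ^ 2) := by ring
      rw [this]
      refine (abs_mul_le_of_abs_le_one _ _ habs2).trans (le_of_eq ?_)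
      rw [abs_div, abs_mul, abs_of_pos (by norm_num : (0:ℝ) < thA)]
      norm_num
    have h3 : |y| * thA / 2 ≤ (501 / 1000) * thA / 2 := by
      apply div_le_div_of_nonneg_right _ (by norm_num)
      exact mul_le_mul_of_nonneg_right hyb (by norm_num)
    calc |-(σ' * a) - y * thA * (1 - σ' ^ 2) / 2 + Y'|
        ≤ |-(σ' * a) - y * thA * (1 - σ' ^ 2) / 2| + |Y'| := abs_add_le _ _
      _ ≤ |-(σ' * a)| + |y * thA * (1 - σ' ^ 2) / 2| + |Y'| := by gcongr; exact abs_sub _ _
      _ ≤ E := by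
        simp only [hE, abs_neg]
        linarith
  -- the key identity
  set D := y * σ' - x * σ with hD
  have hDid : D = σ * σ' * (2 * a) +
      thA * (x * σ' * (1 - σ ^ 2) + y * σ * (1 - σ' ^ 2)) / 2 + (Y * σ' - Y' * σ) := by
    simp only [hD, hYdef, hY'def, ht]; ring
  -- bound of the first term
  have hprod : |σ * σ'| ≤ 1 := by
    rw [abs_mul]; nlinarith [abs_nonneg σ, abs_nonneg σ']
  have term1 : σ * σ' * (2 * a) ≤ thA * (σ ^ 2 * σ' ^ 2) + 2 * thA * E := by
    rcases le_total 0 (σ * σ') with hs | hs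
    · have h3 : a * (σ * σ') ≤ (y * thA * σ') * (σ * σ') := mul_le_mul_of_nonneg_right A2.le hs
      have e : (y * thA * σ') * (σ * σ') = thA * (σ ^ 2 * σ' ^ 2) / 2 + thA * (e₁ * (σ * σ' ^ 2)) := by
        simp only [he₁]; ring
      have h4 : e₁ * (σ * σ' ^ 2) ≤ E := by
        have : |σ * σ' ^ 2| ≤ 1 := by
          rw [abs_mul, abs_pow, sq_abs]
          nlinarith [abs_nonneg σ, sq_nonneg σ']
        have := abs_mul_le_of_abs_le_one e₁ _ this
        exact (le_abs_self _).trans (this.trans he₁b)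
      have h5 : thA * (e₁ * (σ * σ' ^ 2)) ≤ thA * E := mul_le_mul_of_nonneg_left h4 (by norm_num)
      rw [e] at h3
      linarith
    · have h3 : (x * thA * σ) * (σ * σ') ≥ a * (σ * σ') := mul_le_mul_of_nonpos_right A1.le hs
      have e : (x * thA * σ) * (σ * σ') = thA * (σ ^ 2 * σ' ^ 2) / 2 + thA * (e₂ * (σ ^ 2 * σ')) := by
        simp only [he₂]; ring
      have h4 : e₂ * (σ ^ 2 * σ') ≤ E := by
        have : |σ ^ 2 * σ'| ≤ 1 := by
          rw [abs_mul, abs_pow, sq_abs]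
          nlinarith [abs_nonneg σ', sq_nonneg σ]
        have := abs_mul_le_of_abs_le_one e₂ _ this
        exact (le_abs_self _).trans (this.trans he₂b)
      have h5 : thA * (e₂ * (σ ^ 2 * σ')) ≤ thA * E := mul_le_mul_of_nonneg_left h4 (by norm_num)
      rw [e] at h3
      linarith
  have term2 : thA * (x * σ' * (1 - σ ^ 2) + y * σ * (1 - σ' ^ 2)) / 2 ≤
      thA * ((σ ^ 2 + σ' ^ 2 - 2 * (σ ^ 2 * σ' ^ 2)) / 4) + thA * E := by
    have e : x * σ' * (1 - σ ^ 2) + y * σ * (1 - σ' ^ 2) =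
        (σ ^ 2 + σ' ^ 2 - 2 * (σ ^ 2 * σ' ^ 2)) / 2 +
          (e₂ * (σ' * (1 - σ ^ 2)) + e₁ * (σ * (1 - σ' ^ 2))) := by
      simp only [he₁, he₂]; ring
    rw [e]
    have h4 : e₂ * (σ' * (1 - σ ^ 2)) ≤ E := by
      have : |σ' * (1 - σ ^ 2)| ≤ 1 := by
        rw [abs_mul]; nlinarith [abs_nonneg σ', abs_nonneg (1 - σ ^ 2)]
      have := abs_mul_le_of_abs_le_one e₂ _ this
      exact (le_abs_self _).trans (this.trans he₂b)
    have h5 : e₁ * (σ * (1 - σ' ^ 2)) ≤ E := by
      have : |σ * (1 - σ' ^ 2)| ≤ 1 := by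
        rw [abs_mul]; nlinarith [abs_nonneg σ, abs_nonneg (1 - σ' ^ 2)]
      have := abs_mul_le_of_abs_le_one e₁ _ this
      exact (le_abs_self _).trans (this.trans he₁b)
    have h6 : thA * (e₂ * (σ' * (1 - σ ^ 2)) + e₁ * (σ * (1 - σ' ^ 2))) ≤ thA * (E + E) :=
      mul_le_mul_of_nonneg_left (add_le_add h4 h5) (by norm_num)
    linarith
  have term3 : Y * σ' - Y' * σ ≤ 1006 / 1000 * η := by
    have h4 : Y * σ' ≤ 503 / 1000 * η :=
      (le_abs_self _).trans ((abs_mul_le_of_abs_le_one Y σ' hσ').trans hYb)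
    have h5 : -(Y' * σ) ≤ 503 / 1000 * η :=
      (neg_le_abs _).trans ((abs_mul_le_of_abs_le_one Y' σ hσ).trans hY'b)
    linarith
  have hDb : D ≤ thA * ((σ ^ 2 + σ' ^ 2) / 4 + σ ^ 2 * σ' ^ 2 / 2) + 3 * thA * E + 1006 / 1000 * η := by
    rw [hDid]
    linarith
  -- the contradiction
  have hsum : capT σ η + capT σ' η < 1 + thA * D := by
    have : (t - x * thA * σ) + ((1 - t) + y * thA * σ') = 1 + thA * D := by
      simp only [hD]; ring
    linarith
  have hAM : σ ^ 2 * σ' ^ 2 / 2 ≤ (σ ^ 4 + σ' ^ 4) / 4 := by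
    nlinarith [sq_nonneg (σ ^ 2 - σ' ^ 2)]
  have hfin : thA * D ≤ thA * (thA * ((σ ^ 2 + σ' ^ 2) / 4 + (σ ^ 4 + σ' ^ 4) / 4) + 3 * thA * E + 1006 / 1000 * η) := by
    apply mul_le_mul_of_nonneg_left _ (by norm_num)
    have : thA * (σ ^ 2 * σ' ^ 2 / 2) ≤ thA * ((σ ^ 4 + σ' ^ 4) / 4) :=
      mul_le_mul_of_nonneg_left hAM (by norm_num)
    linarith
  unfold capT at hsum
  simp only [hE] at hfin
  ring_nf at hfin hsum
  linarith

end Crest.Agent.Lib.Cyl
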