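import Mathlib

set_option autoImplicit false

open Set Finset

noncomputable section

namespace Crest.Agent.Lib.Cyl

local notation "thA" => ((1 : ℝ) / 1000)

/-- Midpoint of the `i`-th of the `N` equal subintervals of `[-1,1]`. -/
def midS (N : ℕ) (i : ℕ) : ℝ := -1 + (2 * (i : ℝ) + 1) / N

lemma midS_abs_le (N i : ℕ) (hi : i < N) : |midS N i| ≤ 1 := by
  have hN : (0 : ℝ) < N := by exact_mod_cast (Nat.zero_lt_of_lt hi)
  have hi' : (i : ℝ) + 1 ≤ N := by exact_mod_cast hi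
  have hi0 : (0 : ℝ) ≤ i := by positivity
  unfold midS
  rw [abs_le]
  constructor
  · have : 0 ≤ (2 * (i : ℝ) + 1) / N := by positivity
    linarith
  · have : (2 * (i : ℝ) + 1) / N ≤ 2 := by
      rw [div_le_iff₀ hN]
      linarith
    linarith

lemma sum_midS_sq (N : ℕ) (hN : 0 < N) :
    ∑ i ∈ range N, (1 / (N : ℝ)) * midS N i ^ 2 = 1 / 3 - (1 / (N : ℝ)) ^ 2 / 3 := by
  have hN' : (N : ℝ) ≠ 0 := by exact_mod_cast hN.ne'
  set η : ℝ := 1 / (N : ℝ) with hη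
  let f : ℕ → ℝ := fun i => (-1 + 2 * (i : ℝ) * η) ^ 3
  have hf : ∀ i, f (i + 1) - f i = 6 * (η * midS N i ^ 2) + 2 * η ^ 3 := by
    intro i
    have e : midS N i = -1 + 2 * (i : ℝ) * η + η := by
      simp only [midS, hη]; field_simp; ring
    rw [e]
    simp only [f]
    push_cast
    ring
  have hs := Finset.sum_range_sub f N
  have hfN : f N = 1 := by
    simp only [f, hη]; field_simp; ring
  have hf0 : f 0 = -1 := by simp [f]; norm_num
  rw [hfN, hf0] at hs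
  simp only [hf, Finset.sum_add_distrib, ← Finset.mul_sum, Finset.sum_const, card_range, nsmul_eq_mul] at hs
  have hNη : (N : ℝ) * η = 1 := by simp only [hη]; field_simp
  have h3 : (N : ℝ) * η ^ 3 = η ^ 2 := by
    calc (N : ℝ) * η ^ 3 = ((N : ℝ) * η) * (η ^ 2) := by ring
      _ = η ^ 2 := by rw [hNη, one_mul]
  rw [h3] at hs
  rw [← Finset.mul_sum]
  linarith

lemma sum_midS_four (N : ℕ) (hN : 0 < N) :
    ∑ i ∈ range N, (1 / (N : ℝ)) * midS N i ^ 4 ≤ 1 / 5 := by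
  have hN' : (N : ℝ) ≠ 0 := by exact_mod_cast hN.ne'
  have hNpos : (0 : ℝ) < N := by exact_mod_cast hN
  set η : ℝ := 1 / (N : ℝ) with hη
  have hηpos : 0 < η := by positivity
  let f : ℕ → ℝ := fun i => (-1 + 2 * (i : ℝ) * η) ^ 5
  have hf : ∀ i, 10 * (η * midS N i ^ 4) ≤ f (i + 1) - f i := by
    intro i
    have e : midS N i = -1 + 2 * (i : ℝ) * η + η := by
      simp only [midS, hη]; field_simp; ring
    rw [e]
    simp only [f]
    push_cast
    set σ := -1 + 2 * (i : ℝ) * η + η with hσ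
    have e2 : (-1 + 2 * ((i : ℝ) + 1) * η) = σ + η := by rw [hσ]; ring
    have e3 : (-1 + 2 * (i : ℝ) * η) = σ - η := by rw [hσ]; ring
    rw [e2, e3]
    have : (σ + η) ^ 5 - (σ - η) ^ 5 - 10 * (η * σ ^ 4) = 20 * η ^ 3 * σ ^ 2 + 2 * η ^ 5 := by ring
    have h0 : 0 ≤ 20 * η ^ 3 * σ ^ 2 + 2 * η ^ 5 := by positivity
    linarith
  have hs := Finset.sum_range_sub f N
  have hfN : f N = 1 := by
    simp only [f, hη]; field_simp; ring
  have hf0 : f 0 = -1 := by simp [f]; norm_num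
  rw [hfN, hf0] at hs
  have := Finset.sum_le_sum (fun i (_ : i ∈ range N) => hf i)
  rw [hs, ← Finset.mul_sum] at this
  linarith

/-- An elementary bound for the reciprocal square root. -/
lemma inv_sqrt_le (q : ℝ) (h0 : 0 ≤ q) (h1 : q ≤ 1) :
    1 / Real.sqrt (1 + q) ≤ 1 - q / 2 + q ^ 2 / 2 := by
  set f := 1 - q / 2 + q ^ 2 / 2 with hf
  have hfpos : 0 < f := by nlinarith [sq_nonneg q]
  have hr : 0 < Real.sqrt (1 + q) := Real.sqrt_pos.2 (by linarith)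
  rw [div_le_iff₀ hr]
  set r := Real.sqrt (1 + q) with hrdef
  have hr2 : r ^ 2 = 1 + q := Real.sq_sqrt (by linarith)
  have hfr : 0 ≤ f * r := by positivity
  have hsq : 1 ≤ (f * r) ^ 2 := by
    rw [mul_pow, hr2, hf]
    have : (1 - q / 2 + q ^ 2 / 2) ^ 2 * (1 + q) - 1 =
        q ^ 2 / 4 + 3 / 4 * q ^ 3 - q ^ 4 / 4 + q ^ 5 / 4 := by ring
    have h3 : 0 ≤ q ^ 3 := by positivity
    have h4 : q ^ 4 ≤ q ^ 2 := by
      have : q ^ 4 = q ^ 2 * q ^ 2 := by ring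
      rw [this]
      have hq2 : q ^ 2 ≤ 1 := by nlinarith
      nlinarith [sq_nonneg q]
    have h5 : 0 ≤ q ^ 5 := by positivity
    nlinarith
  nlinarith

/-- The quadratic form of the axis direction. -/
def axisQ (σ : ℝ) : ℝ := thA ^ 2 * (1 + σ ^ 2) ^ 2 / 4 + 2 * thA ^ 2 * σ ^ 2

/-- The height of the apex-corrected sector. -/
def capW (σ η : ℝ) : ℝ :=
  1 / 2 + thA ^ 2 * (σ ^ 2 + σ ^ 4) / 4 + 2 * thA ^ 3 + thA * η + thA * η / 2

lemma pointwise_area (σ η : ℝ) (hσ : |σ| ≤ 1) (hη : 0 < η) (hη' : η ≤ 1 / 1000000) :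
    capW σ η ^ 2 * (1 / Real.sqrt (1 + axisQ σ)) ≤
      1 / 4 + thA ^ 2 * (7 / 32 * σ ^ 4 - σ ^ 2 / 16 - 1 / 32) + 2 * thA ^ 3 + 3 / 2 * thA * η +
        2 / 1000000000000 := by
  have hσ2 : σ ^ 2 ≤ 1 := by
    have := sq_abs σ
    rw [← this]
    nlinarith [abs_nonneg σ]
  have hσ2' : 0 ≤ σ ^ 2 := sq_nonneg σ
  have hσ4 : σ ^ 4 ≤ 1 := by
    have : σ ^ 4 = σ ^ 2 * σ ^ 2 := by ring
    rw [this]; nlinarith
  have hσ4' : 0 ≤ σ ^ 4 := by positivity
  set q := axisQ σ with hq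
  have hq0 : 0 ≤ q := by simp only [hq, axisQ]; positivity
  have hq1 : q ≤ 3 * thA ^ 2 := by
    simp only [hq, axisQ]
    have : (1 + σ ^ 2) ^ 2 ≤ 4 := by nlinarith
    nlinarith
  have hq1' : q ≤ 1 := by
    refine hq1.trans ?_
    norm_num
  have hinv := inv_sqrt_le q hq0 hq1'
  set f := 1 - q / 2 + q ^ 2 / 2 with hf
  set b := thA ^ 2 * (σ ^ 2 + σ ^ 4) / 4 + 2 * thA ^ 3 + thA * η + thA * η / 2 with hb
  have hW : capW σ η = 1 / 2 + b := by
    simp only [capW, hb]; ring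
  have hb0 : 0 ≤ b := by simp only [hb]; positivity
  have hb1 : b ≤ 6 / 10000000 := by
    simp only [hb]
    norm_num
    nlinarith
  rw [hW]
  have hf1 : f ≤ 1 := by
    simp only [hf]
    nlinarith
  have hf0 : 0 ≤ f := by
    simp only [hf]
    nlinarith [sq_nonneg q]
  have step1 : (1 / 2 + b) ^ 2 * (1 / Real.sqrt (1 + q)) ≤ (1 / 2 + b) ^ 2 * f :=
    mul_le_mul_of_nonneg_left hinv (by positivity)
  have step2 : (1 / 2 + b) ^ 2 * f ≤ 1 / 4 - q / 8 + q ^ 2 / 8 + b + b ^ 2 := by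
    have e : (1 / 2 + b) ^ 2 * f = (1 / 4) * f + (b + b ^ 2) * f := by ring
    rw [e]
    have : (b + b ^ 2) * f ≤ (b + b ^ 2) * 1 := mul_le_mul_of_nonneg_left hf1 (by positivity)
    simp only [hf] at this ⊢
    nlinarith
  have hqq : q ^ 2 / 8 ≤ 9 / 8 / 1000000000000 := by
    have : q ^ 2 ≤ (3 * thA ^ 2) ^ 2 := pow_le_pow_left₀ hq0 hq1 2
    norm_num at this ⊢
    linarith
  have hbb : b ^ 2 ≤ 36 / 100 / 1000000000000 := by
    have : b ^ 2 ≤ (6 / 10000000) ^ 2 := pow_le_pow_left₀ hb0 hb1 2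
    norm_num at this ⊢
    linarith
  have hid : b - q / 8 = thA ^ 2 * (7 / 32 * σ ^ 4 - σ ^ 2 / 16 - 1 / 32) + 2 * thA ^ 3 + 3 / 2 * thA * η := by
    simp only [hb, hq, axisQ]; ring
  norm_num at hqq hbb
  have := step1.trans step2
  linarith

/-- The total area bound of one family of sectors. -/
theorem sum_area_bound (N : ℕ) (hN : 1000000 ≤ N) :
    ∑ i ∈ range N, (1 / (N : ℝ)) * (capW (midS N i) (1 / (N : ℝ)) ^ 2 *
      (1 / Real.sqrt (1 + axisQ (midS N i)))) ≤ 1 / 4 - 3 / 10000000000 := by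
  have hN0 : 0 < N := by omega
  have hNr : (1000000 : ℝ) ≤ N := by exact_mod_cast hN
  have hNpos : (0 : ℝ) < N := by linarith
  set η : ℝ := 1 / (N : ℝ) with hη
  have hηpos : 0 < η := by positivity
  have hη' : η ≤ 1 / 1000000 := by
    simp only [hη]
    apply one_div_le_one_div_of_le (by norm_num) hNr
  have hNη : (N : ℝ) * η = 1 := by simp only [hη]; field_simp
  have hpt : ∀ i ∈ range N, η * (capW (midS N i) η ^ 2 * (1 / Real.sqrt (1 + axisQ (midS N i)))) ≤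
      η * (1 / 4 + thA ^ 2 * (-1 / 32) + 2 * thA ^ 3 + 3 / 2 * thA * η + 2 / 1000000000000) +
        thA ^ 2 * (7 / 32 * (η * midS N i ^ 4) - (η * midS N i ^ 2) / 16) := by
    intro i hi
    have := pointwise_area (midS N i) η (midS_abs_le N i (Finset.mem_range.1 hi)) hηpos hη'
    have h2 := mul_le_mul_of_nonneg_left this hηpos.le
    refine h2.trans (le_of_eq ?_)
    ring
  refine (Finset.sum_le_sum hpt).trans ?_
  rw [Finset.sum_add_distrib, Finset.sum_const, card_range, nsmul_eq_mul, ← Finset.mul_sum,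
    Finset.sum_sub_distrib, ← Finset.mul_sum, ← Finset.sum_div]
  have h2 := sum_midS_sq N hN0
  have h4 := sum_midS_four N hN0
  rw [← hη] at h2 h4
  rw [h2]
  have e1 : (N : ℝ) * (η * (1 / 4 + thA ^ 2 * (-1 / 32) + 2 * thA ^ 3 + 3 / 2 * thA * η + 2 / 1000000000000)) =
      (1 / 4 + thA ^ 2 * (-1 / 32) + 2 * thA ^ 3 + 3 / 2 * thA * η + 2 / 1000000000000) := by
    rw [← mul_assoc, hNη, one_mul]
  rw [e1]
  have h5 : 7 / 32 * ∑ i ∈ range N, η * midS N i ^ 4 ≤ 7 / 32 * (1 / 5) :=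
    mul_le_mul_of_nonneg_left h4 (by norm_num)
  have h6 : η ^ 2 ≤ (1 / 1000000) ^ 2 := pow_le_pow_left₀ hηpos.le hη' 2
  have h7 : thA ^ 2 * (7 / 32 * ∑ i ∈ range N, η * midS N i ^ 4 - (1 / 3 - η ^ 2 / 3) / 16) ≤
      thA ^ 2 * (7 / 32 * (1 / 5) - (1 / 3 - (1 / 1000000) ^ 2 / 3) / 16) := by
    apply mul_le_mul_of_nonneg_left _ (by norm_num)
    linarith
  have h8 : 3 / 2 * thA * η ≤ 3 / 2 * thA * (1 / 1000000) :=
    mul_le_mul_of_nonneg_left hη' (by norm_num)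
  norm_num at h7 h8 ⊢
  linarith

end Crest.Agent.Lib.Cyl
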