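import Crest.Agent.Lib.Cyl.TetraProj
import Crest.Agent.Lib.Cyl.TetraReal
import Crest.Agent.Lib.Cyl.TetraSum

set_option autoImplicit false

open MeasureTheory Measure Module Set
open scoped ENNReal RealInnerProductSpace

noncomputable section

namespace Crest.Agent.Lib.Cyl

local notation "thA" => ((1 : ℝ) / 1000)

/-! ### The cylinder data -/

/-- The axis of a lower sector. -/
def lowU (θ σ : ℝ) : E3 := !₂[1, θ * (1 + σ ^ 2) / 2, Real.sqrt 2 * (θ * σ)]
/-- The apex of the base of a lower sector. -/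
def lowA (σ ta : ℝ) : E3 := !₂[0, -(σ * ta), -(Real.sqrt 2 * ta)]
/-- The left top corner of the base of a lower sector. -/
def lowL (σ η T ta : ℝ) : E3 := !₂[0, σ * T - η * (T + ta), Real.sqrt 2 * T]
/-- The right top corner of the base of a lower sector. -/
def lowR (σ η T ta : ℝ) : E3 := !₂[0, σ * T + η * (T + ta), Real.sqrt 2 * T]

lemma lowU_ne (θ σ : ℝ) : lowU θ σ ≠ 0 := by
  intro h
  have := congrArg (fun v : E3 => v 0) h
  simp [lowU] at this

theorem low_mem (θ σ η T ta x y t : ℝ) (hη : 0 < η) (hW : 0 < T + ta)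
    (hY : |y - σ * t - x * θ * (1 - σ ^ 2) / 2| ≤ η * (t - x * θ * σ + ta))
    (htop : t - x * θ * σ ≤ T) :
    (!₂[x, y, Real.sqrt 2 * t] : E3) ∈ cylTri (lowU θ σ) (lowA σ ta) (lowL σ η T ta) (lowR σ η T ta) := by
  set t' := t - x * θ * σ with ht'
  set Y := y - σ * t - x * θ * (1 - σ ^ 2) / 2 with hYd
  set W := T + ta with hWd
  have hbound := abs_le.1 hY
  have hηW : 0 < η * W := by positivity
  -- barycentric coordinates
  set l := (t' + ta) / W with hl
  set m := Y / (η * W) with hm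
  have hl1 : l ≤ 1 := by
    rw [hl, div_le_one hW]
    linarith
  have hml : m ≤ l := by
    rw [hm, hl, div_le_iff₀ hηW]
    have : (t' + ta) / W * (η * W) = η * (t' + ta) := by field_simp
    rw [this]
    linarith [hbound.2]
  have hml' : -l ≤ m := by
    have : -l * (η * W) ≤ Y := by
      have e : -l * (η * W) = -(η * (t' + ta)) := by rw [hl]; field_simp
      rw [e]
      linarith [hbound.1]
    rw [hm, le_div_iff₀ hηW]
    exact this
  refine ⟨lowA σ ta + ((l - m) / 2) • (lowL σ η T ta - lowA σ ta) +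
    ((l + m) / 2) • (lowR σ η T ta - lowA σ ta), ?_, x, ?_⟩
  · rw [mem_convexHull_three_iff]
    exact ⟨(l - m) / 2, (l + m) / 2, by linarith, by linarith, by linarith, rfl⟩
  · have e1 : l * W = t' + ta := by rw [hl]; field_simp
    have e2 : m * (η * W) = Y := by rw [hm]; field_simp
    clear_value l m
    ext i
    fin_cases i
    · simp [lowA, lowL, lowR, lowU]
    · simp [lowA, lowL, lowR, lowU]
      linear_combination (-σ) * e1 - e2
    · simp [lowA, lowL, lowR, lowU]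
      linear_combination (-Real.sqrt 2) * e1

/-- The area factor of the lower sectors. -/
lemma det_low (θ σ η T ta : ℝ) :
    det3 (lowL σ η T ta - lowA σ ta) (lowR σ η T ta - lowA σ ta) (lowU θ σ) =
      -(2 * η * Real.sqrt 2 * (T + ta) ^ 2) := by
  simp [det3, lowA, lowL, lowR, lowU]
  ring

lemma norm_lowU (θ σ : ℝ) :
    ‖lowU θ σ‖ = Real.sqrt (1 + (θ ^ 2 * (1 + σ ^ 2) ^ 2 / 4 + 2 * θ ^ 2 * σ ^ 2)) := by
  have h : ‖lowU θ σ‖ ^ 2 = 1 + (θ ^ 2 * (1 + σ ^ 2) ^ 2 / 4 + 2 * θ ^ 2 * σ ^ 2) := by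
    rw [normsq3]
    simp [lowU]
    have hs : Real.sqrt 2 ^ 2 = 2 := sq_sqrt_two
    rw [mul_pow, mul_pow, hs]
    ring
  rw [← h, Real.sqrt_sq (norm_nonneg _)]

/-- Discrete intermediate value theorem. -/
lemma exists_cell (f : ℕ → ℝ) (N : ℕ) (hN : 0 < N) (h0 : 0 ≤ f 0) (h1 : f N ≤ 0) :
    ∃ i, i < N ∧ 0 ≤ f i ∧ f (i + 1) ≤ 0 := by
  by_contra hcon
  push_neg at hcon
  have : ∀ i, i ≤ N → 0 ≤ f i := by
    intro i
    induction i with
    | zero => intro _; exact h0
    | succ k ih =>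
      intro hk
      exact (hcon k (by omega) (ih (by omega))).le
  have h2 := hcon (N - 1) (by omega) (this _ (by omega))
  have e : N - 1 + 1 = N := by omega
  rw [e] at h2
  linarith

/-- Every point with `|y| ≤ t`, `|x| ≤ 1` lies in a sector. -/
theorem exists_sector (θ x y t : ℝ) (N : ℕ) (hN : 0 < N) (hy : |y| ≤ t) (hx : |x| ≤ 1) :
    ∃ i, i < N ∧ 0 ≤ t - x * θ * midS N i ∧
      |y - midS N i * t - x * θ * (1 - midS N i ^ 2) / 2| ≤
        (1 / (N : ℝ)) * (t - x * θ * midS N i + |θ| * (1 / (N : ℝ)) / 2) := by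
  have hNr : (0 : ℝ) < N := by exact_mod_cast hN
  set η : ℝ := 1 / (N : ℝ) with hη
  have hηpos : 0 < η := by positivity
  let τ : ℕ → ℝ := fun i => -1 + 2 * (i : ℝ) * η
  let g : ℕ → ℝ := fun i => y - τ i * t - x * θ * (1 - τ i ^ 2) / 2
  have hy' := abs_le.1 hy
  have hτ0 : τ 0 = -1 := by simp [τ]
  have hτN : τ N = 1 := by
    simp only [τ, hη]; field_simp; ring
  obtain ⟨i, hi, h0, h1⟩ := exists_cell g N hN (by simp only [g, hτ0]; norm_num; linarith [hy'.1])
    (by simp only [g, hτN]; norm_num; linarith [hy'.2])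
  refine ⟨i, hi, ?_⟩
  have e0 : midS N i = τ i + η := by
    simp only [midS, τ, hη]; field_simp; ring
  have e1 : τ (i + 1) = τ i + 2 * η := by
    simp only [τ]; push_cast; ring
  set σ := midS N i with hσ
  have e2 : τ i = σ - η := by rw [e0]; ring
  have e3 : τ (i + 1) = σ + η := by rw [e1, e2]; ring
  simp only [g] at h0 h1
  rw [e2] at h0
  rw [e3] at h1
  set t' := t - x * θ * σ with ht'
  set Y := y - σ * t - x * θ * (1 - σ ^ 2) / 2 with hY
  set κ := x * θ / 2 * η ^ 2 with hκ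
  have g0 : y - (σ - η) * t - x * θ * (1 - (σ - η) ^ 2) / 2 = Y + η * t' + κ := by
    simp only [hY, ht', hκ]; ring
  have g1 : y - (σ + η) * t - x * θ * (1 - (σ + η) ^ 2) / 2 = Y - η * t' + κ := by
    simp only [hY, ht', hκ]; ring
  rw [g0] at h0
  rw [g1] at h1
  have ht'0 : 0 ≤ t' := by
    have : 0 ≤ η * t' := by linarith
    exact nonneg_of_mul_nonneg_right this hηpos
  refine ⟨ht'0, ?_⟩
  have hκb : |κ| ≤ η * (|θ| * η / 2) := by
    rw [hκ, abs_mul, abs_div, abs_mul, abs_of_nonneg (sq_nonneg η)]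
    have : |x| * |θ| ≤ 1 * |θ| := mul_le_mul_of_nonneg_right hx (abs_nonneg θ)
    have h2 : |x| * |θ| * η ^ 2 ≤ 1 * |θ| * η ^ 2 := mul_le_mul_of_nonneg_right this (sq_nonneg η)
    simp only [abs_two]
    nlinarith
  have hκ' := abs_le.1 hκb
  rw [abs_le]
  constructor <;> nlinarith

/-! ### The symmetry exchanging the two opposite edges -/

/-- The isometry of the tetrahedron exchanging the two opposite edges. -/
def psi (P : E3) : E3 := !₂[P 1, P 0, Real.sqrt 2 - P 2]
/-- Its linear part. -/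
def psiL (P : E3) : E3 := !₂[P 1, P 0, -P 2]

lemma psi_psi (P : E3) : psi (psi P) = P := by
  ext i; fin_cases i <;> simp [psi]

lemma psi_add_smul (b U : E3) (t : ℝ) : psi (b + t • U) = psi b + t • psiL U := by
  ext i; fin_cases i <;> simp [psi, psiL]; ring

lemma psi_comb (p q r : E3) (a c : ℝ) :
    psi (p + a • (q - p) + c • (r - p)) = psi p + a • (psi q - psi p) + c • (psi r - psi p) := by
  ext i; fin_cases i <;> simp [psi] <;> ring

lemma cylTri_psi (U A B C X : E3) (hX : X ∈ cylTri U A B C) :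
    psi X ∈ cylTri (psiL U) (psi A) (psi B) (psi C) := by
  obtain ⟨b, hb, t, rfl⟩ := hX
  refine ⟨psi b, ?_, t, psi_add_smul b U t⟩
  rw [mem_convexHull_three_iff] at hb ⊢
  obtain ⟨a, c, ha, hc, hac, rfl⟩ := hb
  exact ⟨a, c, ha, hc, hac, psi_comb _ _ _ _ _⟩

lemma det3_psi (A B C U : E3) :
    det3 (psi B - psi A) (psi C - psi A) (psiL U) = det3 (B - A) (C - A) U := by
  simp [det3, psi, psiL]
  ring

lemma norm_psiL (U : E3) : ‖psiL U‖ = ‖U‖ := by
  have h : ‖psiL U‖ ^ 2 = ‖U‖ ^ 2 := by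
    rw [normsq3, normsq3]
    simp [psiL]
    ring
  exact (sq_eq_sq₀ (norm_nonneg _) (norm_nonneg _)).1 h

lemma psiL_ne (U : E3) (hU : U ≠ 0) : psiL U ≠ 0 := by
  intro h
  have := norm_psiL U
  rw [h, norm_zero] at this
  exact hU (norm_eq_zero.1 this.symm)

/-! ### The shape of the tetrahedron -/

lemma K₀_bounds (P : E3) (hP : P ∈ K₀) :
    |P 1| ≤ P 2 / Real.sqrt 2 ∧ |P 0| ≤ 1 - P 2 / Real.sqrt 2 := by
  have hs : Real.sqrt 2 ≠ 0 := by positivity
  let S : Set E3 := {P | -(P 2 / Real.sqrt 2) ≤ P 1 ∧ P 1 ≤ P 2 / Real.sqrt 2 ∧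
    -(1 - P 2 / Real.sqrt 2) ≤ P 0 ∧ P 0 ≤ 1 - P 2 / Real.sqrt 2}
  have hconv : Convex ℝ S := by
    intro x hx y hy a b ha hb hab
    obtain ⟨h1, h2, h3, h4⟩ := hx
    obtain ⟨h1', h2', h3', h4'⟩ := hy
    have hb' : b = 1 - a := by linarith
    subst hb'
    have e : ∀ i, (a • x + (1 - a) • y) i = a * x i + (1 - a) * y i := by
      intro i; simp
    refine ⟨?_, ?_, ?_, ?_⟩ <;> simp only [e] <;> rw [add_div, mul_div_assoc, mul_div_assoc]
    · nlinarith [mul_le_mul_of_nonneg_left h1 ha, mul_le_mul_of_nonneg_left h1' hb]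
    · nlinarith [mul_le_mul_of_nonneg_left h2 ha, mul_le_mul_of_nonneg_left h2' hb]
    · nlinarith [mul_le_mul_of_nonneg_left h3 ha, mul_le_mul_of_nonneg_left h3' hb]
    · nlinarith [mul_le_mul_of_nonneg_left h4 ha, mul_le_mul_of_nonneg_left h4' hb]
  have hsub : ({tA, tB, tC, tD} : Set E3) ⊆ S := by
    intro x hx
    have e : Real.sqrt 2 / Real.sqrt 2 = 1 := div_self hs
    simp only [mem_insert_iff, mem_singleton_iff] at hx
    rcases hx with rfl | rfl | rfl | rfl <;> simp [S, tA, tB, tC, tD, e]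
  have := convexHull_min hsub hconv hP
  obtain ⟨h1, h2, h3, h4⟩ := this
  exact ⟨abs_le.2 ⟨h1, h2⟩, abs_le.2 ⟨h3, h4⟩⟩

lemma eq_of_coords (P : E3) : P = !₂[P 0, P 1, Real.sqrt 2 * (P 2 / Real.sqrt 2)] := by
  have hs : Real.sqrt 2 ≠ 0 := by positivity
  ext i
  fin_cases i
  · simp
  · simp
  · simp; field_simp

/-- The dichotomy behind the cover. -/
theorem K₀_dichotomy (N : ℕ) (hN : 1000000 ≤ N) (P : E3) (hP : P ∈ K₀) :
    (∃ i, i < N ∧ P ∈ cylTri (lowU thA (midS N i)) (lowA (midS N i) (thA * (1 / (N : ℝ)) / 2))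
        (lowL (midS N i) (1 / (N : ℝ)) (capT (midS N i) (1 / (N : ℝ))) (thA * (1 / (N : ℝ)) / 2))
        (lowR (midS N i) (1 / (N : ℝ)) (capT (midS N i) (1 / (N : ℝ))) (thA * (1 / (N : ℝ)) / 2))) ∨
    (∃ i, i < N ∧ psi P ∈ cylTri (lowU (-thA) (midS N i)) (lowA (midS N i) (thA * (1 / (N : ℝ)) / 2))
        (lowL (midS N i) (1 / (N : ℝ)) (capT (midS N i) (1 / (N : ℝ))) (thA * (1 / (N : ℝ)) / 2))
        (lowR (midS N i) (1 / (N : ℝ)) (capT (midS N i) (1 / (N : ℝ))) (thA * (1 / (N : ℝ)) / 2))) := by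
  have hN0 : 0 < N := by omega
  have hNr : (1000000 : ℝ) ≤ N := by exact_mod_cast hN
  have hNpos : (0 : ℝ) < N := by linarith
  set η : ℝ := 1 / (N : ℝ) with hη
  have hηpos : 0 < η := by positivity
  have hη' : η ≤ 1 / 1000000 := by
    simp only [hη]
    apply one_div_le_one_div_of_le (by norm_num) hNr
  have hs : Real.sqrt 2 ≠ 0 := by positivity
  obtain ⟨hy, hx⟩ := K₀_bounds P hP
  set x := P 0 with hxd
  set y := P 1 with hyd
  set t := P 2 / Real.sqrt 2 with htd
  have ht0 : 0 ≤ t := (abs_nonneg y).trans hy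
  have hx1 : |x| ≤ 1 := by linarith
  have hy1 : |y| ≤ 1 := by
    have := abs_nonneg x
    linarith
  have hPc : P = !₂[x, y, Real.sqrt 2 * t] := eq_of_coords P
  have hPsi : psi P = !₂[y, x, Real.sqrt 2 * (1 - t)] := by
    ext i
    fin_cases i
    · simp [psi, hyd]
    · simp [psi, hxd]
    · simp [psi, htd]
      field_simp
  have hta : 0 < thA * η / 2 := by positivity
  obtain ⟨i, hi, hi0, hiY⟩ := exists_sector thA x y t N hN0 hy hx1
  obtain ⟨j, hj, hj0, hjY⟩ := exists_sector (-thA) y x (1 - t) N hN0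
    (by simpa using hx) hy1
  rw [← hη] at hiY hjY
  rw [abs_of_pos (by norm_num : (0:ℝ) < thA)] at hiY
  rw [abs_neg, abs_of_pos (by norm_num : (0:ℝ) < thA)] at hjY
  have hcapT : ∀ s, 1 / 2 ≤ capT s η := fun s => capT_ge s η hηpos
  by_cases h1 : t - x * thA * midS N i ≤ capT (midS N i) η
  · left
    refine ⟨i, hi, ?_⟩
    rw [hPc]
    refine low_mem thA (midS N i) η _ _ x y t hηpos ?_ ?_ h1
    · have := hcapT (midS N i); linarith
    · have e : η * (t - x * thA * midS N i + thA * η / 2) = η * (t - x * thA * midS N i + thA * η / 2) := rfl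
      exact hiY
  by_cases h2 : (1 - t) - y * (-thA) * midS N j ≤ capT (midS N j) η
  · right
    refine ⟨j, hj, ?_⟩
    rw [hPsi]
    refine low_mem (-thA) (midS N j) η _ _ y x (1 - t) hηpos ?_ ?_ h2
    · have := hcapT (midS N j); linarith
    · exact hjY
  · exfalso
    push_neg at h1 h2
    refine iface_contra x y t (midS N i) (midS N j) η hηpos hη' hy hx
      (midS_abs_le N i hi) (midS_abs_le N j hj) hiY ?_ h1 ?_
    · have e1 : x - midS N j * (1 - t) - y * (-thA) * (1 - midS N j ^ 2) / 2 =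
          x - midS N j * (1 - t) + y * thA * (1 - midS N j ^ 2) / 2 := by ring
      have e2 : (1 - t) - y * (-thA) * midS N j + thA * η / 2 =
          (1 - t) + y * thA * midS N j + thA * η / 2 := by ring
      rw [e1, e2] at hjY
      exact hjY
    · have e3 : (1 - t) - y * (-thA) * midS N j = (1 - t) + y * thA * midS N j := by ring
      rw [e3] at h2
      exact h2

/-! ### The family -/

/-- The area of a lower sector. -/
lemma area_low (θ σ η : ℝ) (hθ : θ ^ 2 = thA ^ 2) (hη : 0 < η) :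
    |det3 (lowL σ η (capT σ η) (thA * η / 2) - lowA σ (thA * η / 2))
        (lowR σ η (capT σ η) (thA * η / 2) - lowA σ (thA * η / 2)) (lowU θ σ)| / (2 * ‖lowU θ σ‖) =
      Real.sqrt 2 * (η * (capW σ η ^ 2 * (1 / Real.sqrt (1 + axisQ σ)))) := by
  rw [det_low, abs_neg, norm_lowU]
  have e : capT σ η + thA * η / 2 = capW σ η := by
    simp only [capT, capW]
  rw [e]
  have e2 : 1 + (θ ^ 2 * (1 + σ ^ 2) ^ 2 / 4 + 2 * θ ^ 2 * σ ^ 2) = 1 + axisQ σ := by
    simp only [axisQ, hθ]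
  rw [e2]
  have hs : 0 < Real.sqrt (1 + axisQ σ) := by
    apply Real.sqrt_pos.2
    have : 0 ≤ axisQ σ := by unfold axisQ; positivity
    linarith
  rw [abs_of_nonneg (by positivity)]
  field_simp

theorem K₀_tri_family (N : ℕ) (hN : 1000000 ≤ N) :
    ∃ U P Q R : Fin N ⊕ Fin N → E3,
      (∀ i, U i ≠ 0) ∧ (∀ i, det3 (Q i - P i) (R i - P i) (U i) ≠ 0) ∧
      (K₀ ⊆ ⋃ i, cylTri (U i) (P i) (Q i) (R i)) ∧
      ∑ i, |det3 (Q i - P i) (R i - P i) (U i)| / (2 * ‖U i‖) ≤
        Real.sqrt 2 * (1 / 2 - 6 / 10000000000) := by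
  have hN0 : 0 < N := by omega
  have hNr : (1000000 : ℝ) ≤ N := by exact_mod_cast hN
  have hNpos : (0 : ℝ) < N := by linarith
  set η : ℝ := 1 / (N : ℝ) with hη
  have hηpos : 0 < η := by positivity
  let ta : ℝ := thA * η / 2
  let σ : Fin N → ℝ := fun i => midS N i
  let T : Fin N → ℝ := fun i => capT (σ i) η
  refine ⟨Sum.elim (fun i => lowU thA (σ i)) (fun j => psiL (lowU (-thA) (σ j))),
    Sum.elim (fun i => lowA (σ i) ta) (fun j => psi (lowA (σ j) ta)),
    Sum.elim (fun i => lowL (σ i) η (T i) ta) (fun j => psi (lowL (σ j) η (T j) ta)),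
    Sum.elim (fun i => lowR (σ i) η (T i) ta) (fun j => psi (lowR (σ j) η (T j) ta)),
    ?_, ?_, ?_, ?_⟩
  · rintro (i | j)
    · exact lowU_ne _ _
    · exact psiL_ne _ (lowU_ne _ _)
  · have hW : ∀ s, capT s η + ta ≠ 0 := by
      intro s
      have := capT_ge s η hηpos
      have h2 : 0 < ta := by simp only [ta]; positivity
      positivity
    rintro (i | j)
    · simp only [Sum.elim_inl]
      rw [det_low]
      simp only [T]
      exact neg_ne_zero.2 (mul_ne_zero (by positivity) (pow_ne_zero 2 (hW _)))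
    · simp only [Sum.elim_inr]
      rw [det3_psi, det_low]
      simp only [T]
      exact neg_ne_zero.2 (mul_ne_zero (by positivity) (pow_ne_zero 2 (hW _)))
  · intro X hX
    rcases K₀_dichotomy N hN X hX with ⟨i, hi, h⟩ | ⟨j, hj, h⟩
    · refine mem_iUnion.2 ⟨Sum.inl ⟨i, hi⟩, ?_⟩
      simp only [Sum.elim_inl]
      exact h
    · refine mem_iUnion.2 ⟨Sum.inr ⟨j, hj⟩, ?_⟩
      simp only [Sum.elim_inr]
      have := cylTri_psi _ _ _ _ _ h
      rw [psi_psi] at this
      exact this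
  · rw [Fintype.sum_sum_type]
    simp only [Sum.elim_inl, Sum.elim_inr]
    have h1 : ∀ i : Fin N, |det3 (lowL (σ i) η (T i) ta - lowA (σ i) ta) (lowR (σ i) η (T i) ta - lowA (σ i) ta)
        (lowU thA (σ i))| / (2 * ‖lowU thA (σ i)‖) =
        Real.sqrt 2 * (η * (capW (σ i) η ^ 2 * (1 / Real.sqrt (1 + axisQ (σ i))))) := by
      intro i
      exact area_low thA (σ i) η rfl hηpos
    have h2 : ∀ j : Fin N, |det3 (psi (lowL (σ j) η (T j) ta) - psi (lowA (σ j) ta))
        (psi (lowR (σ j) η (T j) ta) - psi (lowA (σ j) ta))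
        (psiL (lowU (-thA) (σ j)))| / (2 * ‖psiL (lowU (-thA) (σ j))‖) =
        Real.sqrt 2 * (η * (capW (σ j) η ^ 2 * (1 / Real.sqrt (1 + axisQ (σ j))))) := by
      intro j
      rw [det3_psi, norm_psiL]
      exact area_low (-thA) (σ j) η (by ring) hηpos
    simp only [h1, h2]
    have hsum := sum_area_bound N hN
    rw [← hη] at hsum
    have e : ∑ i : Fin N, Real.sqrt 2 * (η * (capW (σ i) η ^ 2 * (1 / Real.sqrt (1 + axisQ (σ i))))) =
        Real.sqrt 2 * ∑ i ∈ Finset.range N, η * (capW (midS N i) η ^ 2 * (1 / Real.sqrt (1 + axisQ (midS N i)))) := by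
      rw [Finset.mul_sum, Fin.sum_univ_eq_sum_range
        (fun i => Real.sqrt 2 * (η * (capW (midS N i) η ^ 2 * (1 / Real.sqrt (1 + axisQ (midS N i)))))) N]
    rw [e]
    have hs2 : 0 ≤ Real.sqrt 2 := Real.sqrt_nonneg 2
    have := mul_le_mul_of_nonneg_left hsum hs2
    linarith

end Crest.Agent.Lib.Cyl
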