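import Crest.Agent.Lib.Cyl.TetraCover

set_option autoImplicit false

open MeasureTheory Measure Module Set
open scoped ENNReal RealInnerProductSpace

noncomputable section

namespace Crest.Agent.Lib.Cyl

lemma continuous_proj3 (v : E3) : Continuous (proj3 v) := by
  unfold proj3
  have : Continuous fun y : E3 => (⟪y, v⟫ / ‖v‖ ^ 2) • v := by fun_prop
  exact continuous_id.sub this

/-- Projected compact sets have finite area. -/
theorem area_proj_lt_top (v : E3) (hv : v ≠ 0) (S : Set E3) (hS : IsCompact S) :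
    μHE[2] (proj3 v '' S) < ⊤ := by
  haveI : Fact (finrank ℝ E3 = 2 + 1) := ⟨by simp⟩
  let b := OrthonormalBasis.fromOrthogonalSpanSingleton (𝕜 := ℝ) 2 hv
  let a₀ : E3 := (b 0 : E3)
  let a₁ : E3 := (b 1 : E3)
  have hnorm : ∀ i, ‖(b i : E3)‖ = 1 := fun i => b.orthonormal.1 i
  obtain ⟨R, hR⟩ := (hS.image (continuous_proj3 v)).isBounded.subset_closedBall 0
  have hsub : proj3 v '' S ⊆ planeMap a₀ a₁ '' {w : E2 | -R ≤ w 0 ∧ w 0 ≤ R ∧ -R ≤ w 1 ∧ w 1 ≤ R} := by
    intro y hy
    have hyR : ‖y‖ ≤ R := by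
      have := hR hy
      simpa using this
    obtain ⟨x, -, rfl⟩ := hy
    have hperp : proj3 v x ∈ (ℝ ∙ v)ᗮ := by
      rw [Submodule.mem_orthogonal_singleton_iff_inner_left]
      exact proj3_inner v x hv
    have hrep := b.sum_repr' ⟨proj3 v x, hperp⟩
    have hrep' := congrArg (Submodule.subtype _) hrep
    simp only [Fin.sum_univ_two, map_add, map_smul, Submodule.subtype_apply] at hrep'
    set y := proj3 v x with hy
    have hi : ∀ i, |⟪(b i : E3), y⟫| ≤ R := by
      intro i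
      have h1 := abs_real_inner_le_norm (b i : E3) y
      rw [hnorm, one_mul] at h1
      exact h1.trans hyR
    refine ⟨!₂[⟪a₀, y⟫, ⟪a₁, y⟫], ?_, ?_⟩
    · have h0 := abs_le.1 (hi 0)
      have h1 := abs_le.1 (hi 1)
      simp only [mem_setOf_eq]
      exact ⟨by simpa [a₀] using h0.1, by simpa [a₀] using h0.2, by simpa [a₁] using h1.1,
        by simpa [a₁] using h1.2⟩
    · rw [planeMap_apply]
      simp only [PiLp.toLp_apply, Matrix.cons_val_zero, Matrix.cons_val_one]
      simpa [a₀, a₁] using hrep'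
  refine (measure_mono hsub).trans_lt ?_
  rw [areaImage, vol_box]
  exact ENNReal.mul_lt_top ENNReal.ofReal_lt_top
    (ENNReal.mul_lt_top ENNReal.ofReal_lt_top ENNReal.ofReal_lt_top)

lemma isCompact_K₀ : IsCompact K₀ := by
  have : ({tA, tB, tC, tD} : Set E3).Finite := by simp
  exact this.isCompact_convexHull ℝ

lemma proj_eq_of_unit (v : E3) (hv : ‖v‖ = 1) : (fun y : E3 => y - ⟪y, v⟫ • v) = proj3 v := by
  funext y
  simp [proj3, hv]

/-- The projection lower bound in real form. -/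
theorem toReal_area_proj_K₀_ge (v : E3) (hv : ‖v‖ = 1) :
    Real.sqrt 2 ≤ (μHE[2] (proj3 v '' K₀)).toReal := by
  have hv0 : v ≠ 0 := by
    intro h; rw [h] at hv; simp at hv
  have h := area_proj_K₀_ge v hv
  exact (ENNReal.ofReal_le_iff_le_toReal (area_proj_lt_top v hv0 K₀ isCompact_K₀).ne).1 h

/-- The minimal projection is attained along the edge. -/
theorem area_proj_K₀_edge :
    μHE[2] (proj3 (!₂[1, 0, 0] : E3) '' K₀) = ENNReal.ofReal (Real.sqrt 2) := by
  set v : E3 := !₂[1, 0, 0] with hvd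
  have hv : ‖v‖ = 1 := by
    have : ‖v‖ ^ 2 = 1 := by rw [normsq3]; simp [hvd]
    have h0 := norm_nonneg v
    nlinarith
  have hv0 : v ≠ 0 := by
    intro h; rw [h] at hv; simp at hv
  refine le_antisymm ?_ (area_proj_K₀_ge v hv)
  have hp : ∀ y : E3, proj3 v y = !₂[0, y 1, y 2] := by
    intro y
    have e : ⟪y, v⟫ = y 0 := by rw [inner3]; simp [hvd]
    simp only [proj3, e, hv]
    ext i
    fin_cases i <;> simp [hvd]
  let o : E3 := 0
  have hT : μHE[2] (convexHull ℝ ({o, tC, tD} : Set E3)) = ENNReal.ofReal (Real.sqrt 2) := by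
    rw [area_tri]
    congr 1
    have : gram2 (tC - o) (tD - o) = 8 := by
      have h1 : ‖tC - o‖ ^ 2 = 3 := by
        rw [normsq3]; simp [o]; norm_num
      have h2 : ‖tD - o‖ ^ 2 = 3 := by
        rw [normsq3]; simp [o]; norm_num
      have h3 : ⟪tC - o, tD - o⟫ = 1 := by
        rw [inner3]; simp [o]; norm_num
      rw [gram2, h1, h2, h3]; norm_num
    rw [this]
    have e8 : (8 : ℝ) = 2 ^ 2 * 2 := by norm_num
    rw [e8, Real.sqrt_mul (by positivity), Real.sqrt_sq (by norm_num)]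
    ring
  rw [← hT]
  apply measure_mono
  rintro y ⟨x, hx, rfl⟩
  let S : Set E3 := {x | proj3 v x ∈ convexHull ℝ ({o, tC, tD} : Set E3)}
  have hconv : Convex ℝ S := by
    intro a ha b hb α β hα hβ hαβ
    have := (convex_convexHull ℝ ({o, tC, tD} : Set E3)) ha hb hα hβ hαβ
    change proj3 v (α • a + β • b) ∈ convexHull ℝ ({o, tC, tD} : Set E3)
    rw [proj3_add, proj3_smul, proj3_smul]
    exact this
  have hsub : ({tA, tB, tC, tD} : Set E3) ⊆ S := by
    intro z hz
    simp only [mem_insert_iff, mem_singleton_iff] at hz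
    change proj3 v z ∈ convexHull ℝ ({o, tC, tD} : Set E3)
    rcases hz with rfl | rfl | rfl | rfl
    · have : proj3 v tA = o := by rw [hp]; ext i; fin_cases i <;> simp [o]
      rw [this]
      exact subset_convexHull ℝ _ (by simp)
    · have : proj3 v tB = o := by rw [hp]; ext i; fin_cases i <;> simp [o]
      rw [this]
      exact subset_convexHull ℝ _ (by simp)
    · have : proj3 v tC = tC := by rw [hp]; ext i; fin_cases i <;> simp
      rw [this]
      exact subset_convexHull ℝ _ (by simp)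
    · have : proj3 v tD = tD := by rw [hp]; ext i; fin_cases i <;> simp
      rw [this]
      exact subset_convexHull ℝ _ (by simp)
  exact convexHull_min hsub hconv hx

/-- The normal form of the family of triangular cylinders. -/
theorem K₀_normal_family :
    ∃ (u p q r : Fin (1000000 + 1000000) → E3),
      (∀ i, ‖u i‖ = 1) ∧
      (∀ i, ⟪p i, u i⟫ = 0 ∧ ⟪q i, u i⟫ = 0 ∧ ⟪r i, u i⟫ = 0) ∧
      (K₀ ⊆ ⋃ i, {x : E3 | ∃ b ∈ convexHull ℝ ({p i, q i, r i} : Set E3), ∃ t : ℝ, x = b + t • u i}) ∧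
      ∑ i, (μHE[2] (convexHull ℝ ({p i, q i, r i} : Set E3))).toReal ≤
        Real.sqrt 2 * (1 / 2 - 6 / 10000000000) := by
  obtain ⟨U, P, Q, R, hU, -, hcov, hsum⟩ := K₀_tri_family 1000000 le_rfl
  let e : Fin (1000000 + 1000000) ≃ Fin 1000000 ⊕ Fin 1000000 := finSumFinEquiv.symm
  refine ⟨fun i => unit3 (U (e i)), fun i => proj3 (U (e i)) (P (e i)),
    fun i => proj3 (U (e i)) (Q (e i)), fun i => proj3 (U (e i)) (R (e i)),
    fun i => norm_unit3 _ (hU _), ?_, ?_, ?_⟩
  · intro i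
    exact ⟨inner_unit3 _ _ (proj3_inner _ _ (hU _)), inner_unit3 _ _ (proj3_inner _ _ (hU _)),
      inner_unit3 _ _ (proj3_inner _ _ (hU _))⟩
  · intro x hx
    obtain ⟨j, hj⟩ := mem_iUnion.1 (hcov hx)
    refine mem_iUnion.2 ⟨e.symm j, ?_⟩
    have := cylTri_subset (U j) (P j) (Q j) (R j) (hU j) hj
    simpa using this
  · have harea : ∀ j, (μHE[2] (convexHull ℝ ({proj3 (U j) (P j), proj3 (U j) (Q j), proj3 (U j) (R j)} : Set E3))).toReal =
        |det3 (Q j - P j) (R j - P j) (U j)| / (2 * ‖U j‖) := by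
      intro j
      rw [area_proj_tri _ _ _ _ (hU j), ENNReal.toReal_ofReal (by positivity)]
    have : ∀ i, (μHE[2] (convexHull ℝ ({proj3 (U (e i)) (P (e i)), proj3 (U (e i)) (Q (e i)),
        proj3 (U (e i)) (R (e i))} : Set E3))).toReal =
        |det3 (Q (e i) - P (e i)) (R (e i) - P (e i)) (U (e i))| / (2 * ‖U (e i)‖) := fun i => harea (e i)
    simp only [this]
    rw [e.sum_comp (fun j => |det3 (Q j - P j) (R j - P j) (U j)| / (2 * ‖U j‖))]
    exact hsum

end Crest.Agent.Lib.Cyl
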