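import Crest.Agent.Lib.Cyl.TetraFinal

set_option autoImplicit false

open MeasureTheory Measure Module Set
open scoped ENNReal RealInnerProductSpace NNReal Pointwise

noncomputable section

namespace Crest.Agent.Lib.Cyl

/-! ### From triangles to parallelograms -/

lemma exists_level (L : ℕ) (hL : 0 < L) (lam : ℝ) (h0 : 0 ≤ lam) (h1 : lam ≤ 1) :
    ∃ l : Fin L, (l : ℝ) / L ≤ lam ∧ lam ≤ ((l : ℝ) + 1) / L := by
  have hLr : (0 : ℝ) < L := by exact_mod_cast hL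
  by_cases hlam : lam * L < L
  · have hfl : ⌊lam * L⌋₊ < L := by
      rw [Nat.floor_lt (by positivity)]
      exact hlam
    refine ⟨⟨⌊lam * L⌋₊, hfl⟩, ?_, ?_⟩
    · rw [div_le_iff₀ hLr]
      exact Nat.floor_le (by positivity)
    · rw [le_div_iff₀ hLr]
      exact (Nat.lt_floor_add_one _).le
  · have hlam1 : lam = 1 := by
      have : (1 : ℝ) * L ≤ lam * L := by linarith
      have := le_of_mul_le_mul_right this hLr
      linarith
    subst hlam1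
    refine ⟨⟨L - 1, by omega⟩, ?_, ?_⟩
    · rw [div_le_iff₀ hLr]
      have : ((L - 1 : ℕ) : ℝ) ≤ L := by exact_mod_cast Nat.sub_le _ _
      simpa using this
    · have : ((L - 1 : ℕ) : ℝ) + 1 = L := by
        have : (L - 1 + 1 : ℕ) = L := by omega
        exact_mod_cast this
      simp only [this]
      rw [div_self hLr.ne']

/-- A triangular cylinder is covered by `L` parallelogram cylinders. -/
lemma cylTri_subset_levels (U P Q R : E3) (L : ℕ) (hL : 0 < L) :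
    cylTri U P Q R ⊆ ⋃ l : Fin L, cylPar U (P + ((l : ℝ) / L) • (Q - P)) ((1 / (L : ℝ)) • (Q - P))
      ((((l : ℝ) + 1) / L) • (R - Q)) := by
  have hLr : (0 : ℝ) < L := by exact_mod_cast hL
  rintro x ⟨b, hb, τ, rfl⟩
  rw [mem_convexHull_three_iff] at hb
  obtain ⟨a, c, ha, hc, hac, rfl⟩ := hb
  obtain ⟨l, hl1, hl2⟩ := exists_level L hL (a + c) (by positivity) hac
  have hl1' : (l : ℝ) ≤ (a + c) * L := by rwa [div_le_iff₀ hLr] at hl1
  have hl2' : (a + c) * L ≤ (l : ℝ) + 1 := by rwa [le_div_iff₀ hLr] at hl2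
  have hl0 : (0 : ℝ) ≤ l := by positivity
  refine mem_iUnion.2 ⟨l, P + a • (Q - P) + c • (R - P), ?_, τ, rfl⟩
  · refine ⟨(a + c) * L - l, ⟨by linarith, by linarith⟩, c * L / ((l : ℝ) + 1), ⟨by positivity, ?_⟩, ?_⟩
    · rw [div_le_one (by positivity)]
      nlinarith
    · have e1 : ((a + c) * L - l) • (1 / (L : ℝ)) • (Q - P) = (((a + c) * L - l) * (1 / (L : ℝ))) • (Q - P) := by
        rw [smul_smul]
      have e2 : (c * L / ((l : ℝ) + 1)) • (((l : ℝ) + 1) / L) • (R - Q) =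
          ((c * L / ((l : ℝ) + 1)) * (((l : ℝ) + 1) / L)) • (R - Q) := by
        rw [smul_smul]
      have e3 : ((a + c) * L - l) * (1 / (L : ℝ)) = (a + c) - (l : ℝ) / L := by
        field_simp
      have e4 : (c * L / ((l : ℝ) + 1)) * (((l : ℝ) + 1) / L) = c := by
        field_simp
      rw [e1, e2, e3, e4]
      module

lemma det3_level (U P Q R : E3) (L : ℕ) (l : ℝ) :
    det3 ((1 / (L : ℝ)) • (Q - P)) ((((l : ℝ) + 1) / L) • (R - Q)) U =
      (1 / (L : ℝ)) * (((l : ℝ) + 1) / L) * det3 (Q - P) (R - P) U := by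
  rw [det3_smul_left, det3_smul_mid]
  have : det3 (Q - P) (R - Q) U = det3 (Q - P) (R - P) U := by
    simp only [det3, PiLp.sub_apply]
    ring
  rw [this]
  ring

lemma sum_level (L : ℕ) : ∑ l : Fin L, ((l : ℝ) + 1) = (L : ℝ) * (L + 1) / 2 := by
  rw [Fin.sum_univ_eq_sum_range (fun l : ℕ => (l : ℝ) + 1) L]
  induction L with
  | zero => simp
  | succ n ih =>
    rw [Finset.sum_range_succ, ih]
    push_cast
    ring

/-- The total area of the levels. -/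
lemma sum_area_levels (U P Q R : E3) (L : ℕ) (hL : 0 < L) :
    ∑ l : Fin L, |det3 ((1 / (L : ℝ)) • (Q - P)) ((((l : ℝ) + 1) / L) • (R - Q)) U| / ‖U‖ =
      (1 + 1 / (L : ℝ)) * (|det3 (Q - P) (R - P) U| / (2 * ‖U‖)) := by
  have hLr : (0 : ℝ) < L := by exact_mod_cast hL
  have h : ∀ l : Fin L, |det3 ((1 / (L : ℝ)) • (Q - P)) ((((l : ℝ) + 1) / L) • (R - Q)) U| / ‖U‖ =
      ((l : ℝ) + 1) * (|det3 (Q - P) (R - P) U| / (‖U‖ * (L : ℝ) ^ 2)) := by
    intro l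
    rw [det3_level, abs_mul, abs_of_nonneg (by positivity : (0 : ℝ) ≤ 1 / (L : ℝ) * (((l : ℝ) + 1) / L))]
    have hU' : ‖U‖ = 0 ∨ 0 < ‖U‖ := (norm_nonneg U).eq_or_lt'
    rcases hU' with h0 | h0
    · simp [h0]
    · field_simp
  simp only [h]
  rw [← Finset.sum_mul, sum_level]
  have hU' : ‖U‖ = 0 ∨ 0 < ‖U‖ := (norm_nonneg U).eq_or_lt'
  rcases hU' with h0 | h0
  · simp [h0]
  · field_simp

/-- Finite covers of a set by parallelogram cylinders of given total area. -/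
def ParCover (K : Set E3) (T : ℝ) : Prop :=
  ∃ (ι : Type) (_ : Fintype ι) (U C A B : ι → E3), (∀ i, U i ≠ 0) ∧
    (∀ i, det3 (A i) (B i) (U i) ≠ 0) ∧
    K ⊆ (⋃ i, cylPar (U i) (C i) (A i) (B i)) ∧
    ∑ i, |det3 (A i) (B i) (U i)| / ‖U i‖ ≤ T

/-- Refinement of a cover by triangular cylinders into parallelogram cylinders. -/
lemma parCover_of_tri {ι : Type} [Fintype ι] (K : Set E3) (U P Q R : ι → E3)
    (hU : ∀ i, U i ≠ 0) (hd : ∀ i, det3 (Q i - P i) (R i - P i) (U i) ≠ 0)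
    (hK : K ⊆ ⋃ i, cylTri (U i) (P i) (Q i) (R i)) (L : ℕ) (hL : 0 < L) (T : ℝ)
    (hT : (1 + 1 / (L : ℝ)) * ∑ i, |det3 (Q i - P i) (R i - P i) (U i)| / (2 * ‖U i‖) ≤ T) :
    ParCover K T := by
  have hLr : (0 : ℝ) < L := by exact_mod_cast hL
  refine ⟨ι × Fin L, inferInstance, fun j => U j.1,
    fun j => P j.1 + (((j.2 : ℕ) : ℝ) / L) • (Q j.1 - P j.1),
    fun j => (1 / (L : ℝ)) • (Q j.1 - P j.1),
    fun j => ((((j.2 : ℕ) : ℝ) + 1) / L) • (R j.1 - Q j.1), fun j => hU j.1, ?_, ?_, ?_⟩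
  · intro j
    show det3 ((1 / (L : ℝ)) • (Q j.1 - P j.1)) ((((((j.2 : ℕ) : ℝ) + 1) / L)) • (R j.1 - Q j.1)) (U j.1) ≠ 0
    rw [det3_level]
    have := hd j.1
    positivity
  · intro x hx
    obtain ⟨i, hi⟩ := mem_iUnion.1 (hK hx)
    obtain ⟨l, hl⟩ := mem_iUnion.1 (cylTri_subset_levels _ _ _ _ L hL hi)
    exact mem_iUnion.2 ⟨(i, l), hl⟩
  · rw [Fintype.sum_prod_type]
    simp only [sum_area_levels _ _ _ _ L hL]
    rw [← Finset.mul_sum]
    exact hT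

/-- The standard tetrahedron has a parallelogram cover. -/
theorem parCover_K₀ : ParCover K₀ (Real.sqrt 2 * (1 / 2 - 5 / 10000000000)) := by
  obtain ⟨U, P, Q, R, hU, hd, hcov, hsum⟩ := K₀_tri_family 1000000 le_rfl
  refine parCover_of_tri K₀ U P Q R hU hd hcov 10000000000 (by norm_num) _ ?_
  have hs : 0 ≤ Real.sqrt 2 := Real.sqrt_nonneg 2
  have h1 : (0 : ℝ) ≤ 1 + 1 / ((10000000000 : ℕ) : ℝ) := by positivity
  calc _ ≤ (1 + 1 / ((10000000000 : ℕ) : ℝ)) * (Real.sqrt 2 * (1 / 2 - 6 / 10000000000)) :=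
        mul_le_mul_of_nonneg_left hsum h1
    _ ≤ _ := by
      push_cast
      nlinarith

/-! ### Similarities -/

lemma det3_sq_gram (a b c : E3) :
    det3 a b c ^ 2 = ⟪a, a⟫ * ⟪b, b⟫ * ⟪c, c⟫ + 2 * ⟪a, b⟫ * ⟪b, c⟫ * ⟪a, c⟫ - ⟪a, a⟫ * ⟪b, c⟫ ^ 2 -
      ⟪b, b⟫ * ⟪a, c⟫ ^ 2 - ⟪c, c⟫ * ⟪a, b⟫ ^ 2 := by
  simp only [det3, inner3]
  ring

lemma abs_det3_isometry (Q : E3 ≃ₗᵢ[ℝ] E3) (a b c : E3) : |det3 (Q a) (Q b) (Q c)| = |det3 a b c| := by
  rw [← sq_eq_sq_iff_abs_eq_abs, det3_sq_gram, det3_sq_gram]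
  simp only [LinearIsometryEquiv.inner_map_map]

lemma det3_smul_right' (k : ℝ) (a b c : E3) : det3 (k • a) (k • b) c = k ^ 2 * det3 a b c := by
  rw [det3_smul_left, det3_smul_mid]
  ring

/-- Transfer of a parallelogram cover through a similarity. -/
theorem ParCover.sim {K : Set E3} {T : ℝ} (h : ParCover K T) (Q : E3 ≃ₗᵢ[ℝ] E3) (r : ℝ) (hr : 0 < r)
    (t : E3) : ParCover ((fun x => r • Q x + t) '' K) (r ^ 2 * T) := by
  obtain ⟨ι, _, U, C, A, B, hU, hd, hK, hT⟩ := h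
  have hdet : ∀ i, |det3 (r • Q (A i)) (r • Q (B i)) (Q (U i))| = r ^ 2 * |det3 (A i) (B i) (U i)| := by
    intro i
    rw [det3_smul_right', abs_mul, abs_det3_isometry, abs_of_pos (by positivity : (0 : ℝ) < r ^ 2)]
  refine ⟨ι, inferInstance, fun i => Q (U i), fun i => r • Q (C i) + t, fun i => r • Q (A i),
    fun i => r • Q (B i), ?_, ?_, ?_, ?_⟩
  · intro i
    simpa using hU i
  · intro i
    intro h0
    have := hdet i
    simp only at h0
    rw [h0, abs_zero] at this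
    have h2 : |det3 (A i) (B i) (U i)| ≠ 0 := abs_ne_zero.2 (hd i)
    have h3 : r ^ 2 * |det3 (A i) (B i) (U i)| ≠ 0 := by positivity
    exact h3 this.symm
  · rintro _ ⟨x, hx, rfl⟩
    obtain ⟨i, b, ⟨s, hs, τ, hτ, rfl⟩, z, rfl⟩ := mem_iUnion.1 (hK hx)
    refine mem_iUnion.2 ⟨i, r • Q (C i) + t + s • r • Q (A i) + τ • r • Q (B i), ⟨s, hs, τ, hτ, rfl⟩,
      r * z, ?_⟩
    simp only [map_add, map_smul, smul_add, smul_smul]
    rw [mul_comm r s, mul_comm r τ, mul_comm r z]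
    abel
  · simp only [hdet, LinearIsometryEquiv.norm_map]
    have : ∀ i, r ^ 2 * |det3 (A i) (B i) (U i)| / ‖U i‖ = r ^ 2 * (|det3 (A i) (B i) (U i)| / ‖U i‖) :=
      fun i => mul_div_assoc _ _ _
    simp only [this]
    rw [← Finset.mul_sum]
    exact mul_le_mul_of_nonneg_left hT (by positivity)

/-- Area scaling under a similarity. -/
theorem area_sim (Q : E3 ≃ₗᵢ[ℝ] E3) (r : ℝ) (hr : 0 < r) (t : E3) (S : Set E3) :
    μHE[2] ((fun x => r • Q x + t) '' S) = ENNReal.ofReal (r ^ 2) * μHE[2] S := by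
  have e : (fun x => r • Q x + t) '' S = (fun y => t + y) '' (r • (Q '' S)) := by
    ext y
    simp only [mem_image, Set.mem_smul_set]
    constructor
    · rintro ⟨x, hx, rfl⟩
      exact ⟨r • Q x, ⟨Q x, ⟨x, hx, rfl⟩, rfl⟩, add_comm _ _⟩
    · rintro ⟨_, ⟨_, ⟨x, hx, rfl⟩, rfl⟩, rfl⟩
      exact ⟨x, hx, add_comm _ _⟩
  rw [e, area_translate, euclideanHausdorffMeasure_smul₀ 2 hr.ne', Q.isometry.euclideanHausdorffMeasure_image]
  rw [ENNReal.smul_def, smul_eq_mul]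
  congr 1
  rw [ENNReal.ofReal_pow hr.le, ← ENNReal.ofReal_coe_nnreal]
  simp [abs_of_pos hr, ENNReal.ofReal_pow hr.le]

/-- The projection of a similar image. -/
theorem proj_sim (Q : E3 ≃ₗᵢ[ℝ] E3) (r : ℝ) (t v₀ : E3) (x : E3) :
    (r • Q x + t) - ⟪r • Q x + t, Q v₀⟫ • Q v₀ =
      r • Q (x - ⟪x, v₀⟫ • v₀) + (t - ⟪t, Q v₀⟫ • Q v₀) := by
  simp only [inner_add_left, inner_smul_left, LinearIsometryEquiv.inner_map_map, map_sub, map_smul,
    conj_trivial]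
  module

/-- The projections of a similar image of the standard tetrahedron have area at least that of
the scaled minimal projection. -/
theorem area_proj_sim_ge (Q : E3 ≃ₗᵢ[ℝ] E3) (r : ℝ) (hr : 0 < r) (t v : E3) (hv : ‖v‖ = 1) :
    r ^ 2 * Real.sqrt 2 ≤
      (μHE[2] ((fun y => y - ⟪y, v⟫ • v) '' ((fun x => r • Q x + t) '' K₀))).toReal := by
  obtain ⟨v₀, rfl⟩ := Q.surjective v
  have hv₀ : ‖v₀‖ = 1 := by simpa using hv
  have e : (fun y => y - ⟪y, Q v₀⟫ • Q v₀) '' ((fun x => r • Q x + t) '' K₀) =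
      (fun x => r • Q x + (t - ⟪t, Q v₀⟫ • Q v₀)) '' (proj3 v₀ '' K₀) := by
    rw [image_image, image_image, ← proj_eq_of_unit v₀ hv₀]
    exact image_congr fun x _ => proj_sim Q r t v₀ x
  rw [e, area_sim Q r hr, ENNReal.toReal_mul, ENNReal.toReal_ofReal (by positivity)]
  exact mul_le_mul_of_nonneg_left (toReal_area_proj_K₀_ge v₀ hv₀) (by positivity)

/-! ### The similarity onto a regular tetrahedron -/

/-- The linear map sending the edge vectors of the standard tetrahedron to those of another. -/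
def simLin (d₁ d₂ d₃ : E3) : E3 →ₗ[ℝ] E3 where
  toFun x := (-(x 0 + x 2 / Real.sqrt 2) / 2) • d₁ + ((x 2 / Real.sqrt 2 + x 1) / 2) • d₂ +
    ((x 2 / Real.sqrt 2 - x 1) / 2) • d₃
  map_add' x y := by
    simp only [PiLp.add_apply]
    module
  map_smul' c x := by
    simp only [PiLp.smul_apply, smul_eq_mul, RingHom.id_apply]
    module

lemma simLin_apply (d₁ d₂ d₃ x : E3) : simLin d₁ d₂ d₃ x =
    (-(x 0 + x 2 / Real.sqrt 2) / 2) • d₁ + ((x 2 / Real.sqrt 2 + x 1) / 2) • d₂ +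
    ((x 2 / Real.sqrt 2 - x 1) / 2) • d₃ := rfl

lemma norm_simLin (d₁ d₂ d₃ : E3) (ℓ : ℝ) (h11 : ⟪d₁, d₁⟫ = ℓ ^ 2) (h22 : ⟪d₂, d₂⟫ = ℓ ^ 2)
    (h33 : ⟪d₃, d₃⟫ = ℓ ^ 2) (h12 : ⟪d₁, d₂⟫ = ℓ ^ 2 / 2) (h13 : ⟪d₁, d₃⟫ = ℓ ^ 2 / 2)
    (h23 : ⟪d₂, d₃⟫ = ℓ ^ 2 / 2) (x : E3) :
    ‖simLin d₁ d₂ d₃ x‖ ^ 2 = (ℓ / 2) ^ 2 * ‖x‖ ^ 2 := by
  rw [normsq3 x, ← real_inner_self_eq_norm_sq, simLin_apply]
  have h21 : ⟪d₂, d₁⟫ = ℓ ^ 2 / 2 := by rw [real_inner_comm]; exact h12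
  have h31 : ⟪d₃, d₁⟫ = ℓ ^ 2 / 2 := by rw [real_inner_comm]; exact h13
  have h32 : ⟪d₃, d₂⟫ = ℓ ^ 2 / 2 := by rw [real_inner_comm]; exact h23
  simp only [inner_add_left, inner_add_right, inner_smul_left, inner_smul_right, conj_trivial,
    h11, h22, h33, h12, h13, h23, h21, h31, h32]
  have hs : (x 2 / Real.sqrt 2) ^ 2 = (x 2) ^ 2 / 2 := by
    rw [div_pow, Real.sq_sqrt (by norm_num)]
  generalize x 2 / Real.sqrt 2 = p at hs
  have : (x 2) ^ 2 = 2 * p ^ 2 := by rw [hs]; ring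
  rw [this]
  ring

/-- Any regular tetrahedron is similar to the standard one. -/
theorem exists_similarity (w : Fin 4 → E3) (ℓ : ℝ) (hℓ : 0 < ℓ)
    (hw : ∀ i j, i ≠ j → dist (w i) (w j) = ℓ) :
    ∃ (Q : E3 ≃ₗᵢ[ℝ] E3) (t : E3), convexHull ℝ (Set.range w) = (fun x => (ℓ / 2) • Q x + t) '' K₀ := by
  set d₁ := w 1 - w 0 with hd₁
  set d₂ := w 2 - w 0 with hd₂
  set d₃ := w 3 - w 0 with hd₃
  have hnorm : ∀ i j, i ≠ j → ‖w i - w j‖ ^ 2 = ℓ ^ 2 := by
    intro i j hij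
    rw [← dist_eq_norm, hw i j hij]
  have h11 : ⟪d₁, d₁⟫ = ℓ ^ 2 := by
    rw [real_inner_self_eq_norm_sq, hd₁]; exact hnorm _ _ (by decide)
  have h22 : ⟪d₂, d₂⟫ = ℓ ^ 2 := by
    rw [real_inner_self_eq_norm_sq, hd₂]; exact hnorm _ _ (by decide)
  have h33 : ⟪d₃, d₃⟫ = ℓ ^ 2 := by
    rw [real_inner_self_eq_norm_sq, hd₃]; exact hnorm _ _ (by decide)
  have hcross : ∀ a b : E3, ⟪a, a⟫ = ℓ ^ 2 → ⟪b, b⟫ = ℓ ^ 2 → ‖a - b‖ ^ 2 = ℓ ^ 2 → ⟪a, b⟫ = ℓ ^ 2 / 2 := by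
    intro a b ha hb hab
    rw [← real_inner_self_eq_norm_sq, inner_sub_left, inner_sub_right, inner_sub_right, ha, hb,
      real_inner_comm a b] at hab
    linarith
  have h12 : ⟪d₁, d₂⟫ = ℓ ^ 2 / 2 := hcross _ _ h11 h22 (by
    have : d₁ - d₂ = w 1 - w 2 := by rw [hd₁, hd₂]; abel
    rw [this]; exact hnorm _ _ (by decide))
  have h13 : ⟪d₁, d₃⟫ = ℓ ^ 2 / 2 := hcross _ _ h11 h33 (by
    have : d₁ - d₃ = w 1 - w 3 := by rw [hd₁, hd₃]; abel
    rw [this]; exact hnorm _ _ (by decide))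
  have h23 : ⟪d₂, d₃⟫ = ℓ ^ 2 / 2 := hcross _ _ h22 h33 (by
    have : d₂ - d₃ = w 2 - w 3 := by rw [hd₂, hd₃]; abel
    rw [this]; exact hnorm _ _ (by decide))
  have hr : 0 < ℓ / 2 := by positivity
  set r := ℓ / 2 with hrdef
  let Q₀ : E3 →ₗᵢ[ℝ] E3 :=
    { toLinearMap := r⁻¹ • simLin d₁ d₂ d₃
      norm_map' := by
        intro x
        have h := norm_simLin d₁ d₂ d₃ ℓ h11 h22 h33 h12 h13 h23 x
        have h1 : ‖(r⁻¹ • simLin d₁ d₂ d₃) x‖ ^ 2 = ‖x‖ ^ 2 := by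
          rw [LinearMap.smul_apply, norm_smul, mul_pow, h, Real.norm_eq_abs, sq_abs, ← hrdef]
          field_simp
        exact (sq_eq_sq₀ (norm_nonneg _) (norm_nonneg _)).1 h1 }
  let Q : E3 ≃ₗᵢ[ℝ] E3 := Q₀.toLinearIsometryEquiv rfl
  have hQ : ∀ x, r • Q x = simLin d₁ d₂ d₃ x := by
    intro x
    show r • (r⁻¹ • simLin d₁ d₂ d₃) x = simLin d₁ d₂ d₃ x
    rw [LinearMap.smul_apply, smul_smul, mul_inv_cancel₀ hr.ne', one_smul]
  let t : E3 := w 0 + (1 / 2 : ℝ) • d₁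
  refine ⟨Q, t, ?_⟩
  let f : E3 →ᵃ[ℝ] E3 := (r • Q.toLinearEquiv.toLinearMap).toAffineMap + AffineMap.const ℝ E3 t
  have hf : ∀ x, f x = r • Q x + t := fun x => rfl
  have hs2 : Real.sqrt 2 / Real.sqrt 2 = 1 := div_self (by positivity)
  have hA : f tA = w 0 := by
    rw [hf, hQ, simLin_apply]
    simp only [t, hd₁]
    simp
    module
  have hB : f tB = w 1 := by
    rw [hf, hQ, simLin_apply]
    simp only [t, hd₁]
    simp
    module
  have hC : f tC = w 2 := by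
    rw [hf, hQ, simLin_apply]
    simp only [t, hd₁, hd₂, hd₃]
    simp [hs2]
    module
  have hD : f tD = w 3 := by
    rw [hf, hQ, simLin_apply]
    simp only [t, hd₁, hd₂, hd₃]
    simp [hs2]
    module
  have hrange : Set.range w = f '' {tA, tB, tC, tD} := by
    rw [Set.image_insert_eq, Set.image_insert_eq, Set.image_pair, hA, hB, hC, hD]
    ext y
    constructor
    · rintro ⟨i, rfl⟩
      fin_cases i <;> simp
    · rintro (rfl | rfl | rfl | rfl) <;> exact ⟨_, rfl⟩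
  rw [hrange, ← AffineMap.image_convexHull]
  rfl

/-! ### The open bases (following `S0329`) -/

lemma det3_cramer (A B U y : E3) (hd : det3 A B U ≠ 0) :
    y = (det3 y B U / det3 A B U) • A + (det3 A y U / det3 A B U) • B + (det3 A B y / det3 A B U) • U := by
  ext j
  simp only [PiLp.add_apply, PiLp.smul_apply, smul_eq_mul]
  field_simp
  fin_cases j <;> simp [det3] <;> ring

lemma det3_comb1 (A B U : E3) (s t x : ℝ) :
    det3 (s • A + t • B + x • U) B U = s * det3 A B U := by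
  simp only [det3, PiLp.add_apply, PiLp.smul_apply, smul_eq_mul]
  ring

lemma det3_comb2 (A B U : E3) (s t x : ℝ) :
    det3 A (s • A + t • B + x • U) U = t * det3 A B U := by
  simp only [det3, PiLp.add_apply, PiLp.smul_apply, smul_eq_mul]
  ring

lemma proj3_self (U : E3) (hU : U ≠ 0) : proj3 U U = 0 := by
  have h : ‖U‖ ^ 2 ≠ 0 := by
    have := norm_pos_iff.2 hU
    positivity
  simp only [proj3, real_inner_self_eq_norm_sq, div_self h, one_smul, sub_self]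

lemma proj3_of_inner (U y : E3) (h : ⟪y, U⟫ = 0) : proj3 U y = y := by
  simp [proj3, h]

lemma isBounded_parSet (C A B : E3) : Bornology.IsBounded (parSet C A B) := by
  refine (isBounded_iff_forall_norm_le).mpr ⟨‖C‖ + ‖A‖ + ‖B‖, ?_⟩
  rintro x ⟨s, hs, t, ht, rfl⟩
  have hs' : ‖s • A‖ ≤ ‖A‖ := by
    rw [norm_smul, Real.norm_eq_abs, abs_of_nonneg hs.1]
    exact mul_le_of_le_one_left (norm_nonneg _) hs.2
  have ht' : ‖t • B‖ ≤ ‖B‖ := by
    rw [norm_smul, Real.norm_eq_abs, abs_of_nonneg ht.1]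
    exact mul_le_of_le_one_left (norm_nonneg _) ht.2
  calc ‖C + s • A + t • B‖ ≤ ‖C + s • A‖ + ‖t • B‖ := norm_add_le _ _
    _ ≤ ‖C‖ + ‖s • A‖ + ‖t • B‖ := by gcongr; exact norm_add_le _ _
    _ ≤ _ := by gcongr

/-- An open base containing the projection of a parallelogram. -/
lemma open_base (U C A B : E3) (hU : U ≠ 0) (hd : det3 A B U ≠ 0) (κ : ℝ) (hκ : 0 < κ) :
    ∃ O : Set E3, IsOpen O ∧ Bornology.IsBounded (O ∩ {x | inner ℝ x (unit3 U) = 0}) ∧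
      (μHE[2] (O ∩ {x | inner ℝ x (unit3 U) = 0})).toReal ≤ (1 + 2 * κ) ^ 2 * (|det3 A B U| / ‖U‖) ∧
      ∀ s ∈ Set.Icc (0 : ℝ) 1, ∀ t ∈ Set.Icc (0 : ℝ) 1, ∀ x : ℝ,
        ∃ y ∈ O ∩ {x | inner ℝ x (unit3 U) = 0}, ∃ τ : ℝ, C + s • A + t • B + x • U = y + τ • unit3 U := by
  set d := det3 A B U with hddef
  set O : Set E3 := {y | det3 (y - C) B U / d ∈ Set.Ioo (-κ) (1 + κ) ∧
    det3 A (y - C) U / d ∈ Set.Ioo (-κ) (1 + κ)} with hO
  have hκ' : 0 < 1 + 2 * κ := by positivity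
  have hUn : 0 < ‖U‖ := norm_pos_iff.2 hU
  -- the enlarged parallelogram
  set C' := C - κ • A - κ • B with hC'
  set A' := (1 + 2 * κ) • A with hA'
  set B' := (1 + 2 * κ) • B with hB'
  have hsub : O ∩ {x | inner ℝ x (unit3 U) = 0} ⊆ parSet (proj3 U C') (proj3 U A') (proj3 U B') := by
    rintro y ⟨⟨⟨h1, h2⟩, ⟨h3, h4⟩⟩, hy⟩
    have hyU : ⟪y, U⟫ = 0 := by
      have h5 : ⟪y, unit3 U⟫ = 0 := hy
      rw [unit3, inner_smul_right] at h5
      have : ‖U‖⁻¹ ≠ 0 := by positivity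
      exact (mul_eq_zero.mp h5).resolve_left this
    set φ₁ := det3 (y - C) B U / d with hφ₁
    set φ₂ := det3 A (y - C) U / d with hφ₂
    set φ₃ := det3 A B (y - C) / d with hφ₃
    have hdec : y - C = φ₁ • A + φ₂ • B + φ₃ • U := det3_cramer A B U (y - C) hd
    have hy' : y = proj3 U C + φ₁ • proj3 U A + φ₂ • proj3 U B := by
      have h6 := congrArg (proj3 U) hdec
      rw [proj3_sub, proj3_of_inner U y hyU, proj3_add, proj3_add, proj3_smul, proj3_smul, proj3_smul,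
        proj3_self U hU, smul_zero, add_zero] at h6
      rw [add_assoc, ← h6]
      abel
    refine ⟨(φ₁ + κ) / (1 + 2 * κ), ⟨by apply div_nonneg <;> linarith, ?_⟩,
      (φ₂ + κ) / (1 + 2 * κ), ⟨by apply div_nonneg <;> linarith, ?_⟩, ?_⟩
    · rw [div_le_one hκ']; linarith
    · rw [div_le_one hκ']; linarith
    · rw [hy', hC', hA', hB']
      simp only [proj3_sub, proj3_smul, smul_smul]
      rw [div_mul_cancel₀ _ hκ'.ne', div_mul_cancel₀ _ hκ'.ne']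
      module
  have hdetscale : det3 A' B' U = (1 + 2 * κ) ^ 2 * d := by
    rw [hA', hB', det3_smul_left, det3_smul_mid]
    ring
  refine ⟨O, ?_, (isBounded_parSet _ _ _).subset hsub, ?_, ?_⟩
  · have h1 : Continuous fun y : E3 => det3 (y - C) B U / d := by
      unfold det3
      simp only [PiLp.sub_apply]
      fun_prop
    have h2 : Continuous fun y : E3 => det3 A (y - C) U / d := by
      unfold det3
      simp only [PiLp.sub_apply]
      fun_prop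
    exact (isOpen_Ioo.preimage h1).inter (isOpen_Ioo.preimage h2)
  · have h1 := measure_mono (μ := μHE[2]) hsub
    rw [area_proj_par U C' A' B' hU, hdetscale] at h1
    have h2 := ENNReal.toReal_mono ENNReal.ofReal_ne_top h1
    rw [ENNReal.toReal_ofReal (by positivity), abs_mul, abs_of_pos (by positivity : (0 : ℝ) < (1 + 2 * κ) ^ 2),
      mul_div_assoc] at h2
    exact h2
  · intro s hs t ht x
    set z := C + s • A + t • B + x • U with hz
    refine ⟨proj3 U z, ⟨?_, ?_⟩, (⟪z, U⟫ / ‖U‖ ^ 2) * ‖U‖, ?_⟩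
    · have e1 : proj3 U z - C = s • A + t • B + (x - ⟪z, U⟫ / ‖U‖ ^ 2) • U := by
        simp only [proj3, hz]
        module
      have e2 : det3 (proj3 U z - C) B U / d = s := by
        rw [e1, det3_comb1, ← hddef]
        field_simp
      have e3 : det3 A (proj3 U z - C) U / d = t := by
        rw [e1, det3_comb2, ← hddef]
        field_simp
      show det3 (proj3 U z - C) B U / d ∈ Set.Ioo (-κ) (1 + κ) ∧
        det3 A (proj3 U z - C) U / d ∈ Set.Ioo (-κ) (1 + κ)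
      rw [e2, e3]
      refine ⟨⟨by linarith [hs.1], by linarith [hs.2]⟩, ⟨by linarith [ht.1], by linarith [ht.2]⟩⟩
    · exact inner_unit3 U _ (proj3_inner U z hU)
    · rw [← smul_unit3 U hU]
      exact proj3_decomp U z

/-! ### Assembly -/

/-- A parallelogram cover of total area `T` with `T` below half the minimal projection yields both
kinds of covers of the statement. -/
theorem assembly (K : Set E3) (T P κ : ℝ) (hP : 0 < P) (hκ : 0 < κ) (hT : (1 + 2 * κ) ^ 2 * T < P / 2)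
    (hT0 : 0 ≤ T) (hcover : ParCover K T)
    (harea : ∀ v : E3, ‖v‖ = 1 → P ≤ (μHE[2] ((fun y => y - inner ℝ y v • v) '' K)).toReal) :
    (∃ (k : ℕ) (u c a b : Fin k → E3),
      (∀ i, ‖u i‖ = 1) ∧
      (∀ i, inner ℝ (c i) (u i) = 0 ∧ inner ℝ (a i) (u i) = 0 ∧ inner ℝ (b i) (u i) = 0) ∧
      K ⊆ ⋃ i, {x : E3 |
        ∃ s ∈ Set.Icc (0 : ℝ) 1, ∃ t ∈ Set.Icc (0 : ℝ) 1, ∃ τ : ℝ, x = c i + s • a i + t • b i + τ • u i} ∧
      (∃ δ : ℝ, 0 < δ ∧ ∀ v : E3, ‖v‖ = 1 →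
        (∑ i, (μHE[2] {x : E3 |
            ∃ s ∈ Set.Icc (0 : ℝ) 1, ∃ t ∈ Set.Icc (0 : ℝ) 1, x = c i + s • a i + t • b i}).toReal) + δ ≤
          (μHE[2] ((fun y => y - inner ℝ y v • v) '' K)).toReal / 2) ∧
      ∑ i, (μHE[2] {x : E3 |
            ∃ s ∈ Set.Icc (0 : ℝ) 1, ∃ t ∈ Set.Icc (0 : ℝ) 1, x = c i + s • a i + t • b i}).toReal /
          (μHE[2] ((fun y => y - inner ℝ y (u i) • u i) '' K)).toReal < 1 / 2) ∧
    (∃ (k : ℕ) (u : Fin k → E3) (B : Fin k → Set E3),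
      (∀ i, ‖u i‖ = 1) ∧
      (∀ i, Bornology.IsBounded (B i) ∧ ∃ O : Set E3, IsOpen O ∧
        B i = O ∩ {x | inner ℝ x (u i) = 0}) ∧
      K ⊆ ⋃ i, {x : E3 | ∃ y ∈ B i, ∃ τ : ℝ, x = y + τ • u i} ∧
      (∃ δ : ℝ, 0 < δ ∧ ∀ v : E3, ‖v‖ = 1 →
        (∑ i, (μHE[2] (B i)).toReal) + δ ≤
          (μHE[2] ((fun y => y - inner ℝ y v • v) '' K)).toReal / 2) ∧
      ∑ i, (μHE[2] (B i)).toReal /
          (μHE[2] ((fun y => y - inner ℝ y (u i) • u i) '' K)).toReal < 1 / 2) := by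
  obtain ⟨ι, _, U, C, A, B, hU, hd, hK, hTsum⟩ := hcover
  -- a general ratio bound
  have hratio : ∀ (k : ℕ) (g : Fin k → ℝ) (u : Fin k → E3) (S : ℝ), (∀ i, 0 ≤ g i) → (∀ i, ‖u i‖ = 1) →
      ∑ i, g i ≤ S → S < P / 2 →
      ∑ i, g i / (μHE[2] ((fun y => y - inner ℝ y (u i) • u i) '' K)).toReal < 1 / 2 := by
    intro k g u S hg hu hgS hS
    have h1 : ∑ i, g i / (μHE[2] ((fun y => y - inner ℝ y (u i) • u i) '' K)).toReal ≤ ∑ i, g i / P :=
      Finset.sum_le_sum fun i _ => div_le_div_of_nonneg_left (hg i) hP (harea _ (hu i))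
    rw [← Finset.sum_div] at h1
    refine lt_of_le_of_lt h1 ?_
    rw [div_lt_iff₀ hP]
    linarith
  have hgain : T ≤ (1 + 2 * κ) ^ 2 * T := by
    have : (1 : ℝ) ≤ (1 + 2 * κ) ^ 2 := by nlinarith
    nlinarith
  let e : Fin (Fintype.card ι) ≃ ι := (Fintype.equivFin ι).symm
  constructor
  · refine ⟨Fintype.card ι, fun i => unit3 (U (e i)), fun i => proj3 (U (e i)) (C (e i)),
      fun i => proj3 (U (e i)) (A (e i)), fun i => proj3 (U (e i)) (B (e i)),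
      fun i => norm_unit3 _ (hU _), ?_, ?_, ?_⟩
    · intro i
      exact ⟨inner_unit3 _ _ (proj3_inner _ _ (hU _)), inner_unit3 _ _ (proj3_inner _ _ (hU _)),
        inner_unit3 _ _ (proj3_inner _ _ (hU _))⟩
    · intro x hx
      obtain ⟨j, hj⟩ := mem_iUnion.1 (hK hx)
      obtain ⟨b, ⟨s, hs, t, ht, rfl⟩, τ, rfl⟩ := cylPar_subset _ _ _ _ (hU j) hj
      refine mem_iUnion.2 ⟨e.symm j, s, hs, t, ht, τ, ?_⟩
      simp
    have harea_i : ∀ i, (μHE[2] {x : E3 | ∃ s ∈ Set.Icc (0 : ℝ) 1, ∃ t ∈ Set.Icc (0 : ℝ) 1,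
        x = proj3 (U (e i)) (C (e i)) + s • proj3 (U (e i)) (A (e i)) + t • proj3 (U (e i)) (B (e i))}).toReal =
        |det3 (A (e i)) (B (e i)) (U (e i))| / ‖U (e i)‖ := by
      intro i
      have := area_proj_par (U (e i)) (C (e i)) (A (e i)) (B (e i)) (hU _)
      rw [parSet] at this
      rw [this, ENNReal.toReal_ofReal (by positivity)]
    have hsum : ∑ i, |det3 (A (e i)) (B (e i)) (U (e i))| / ‖U (e i)‖ ≤ T := by
      rw [e.sum_comp (fun j => |det3 (A j) (B j) (U j)| / ‖U j‖)]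
      exact hTsum
    simp only [harea_i]
    constructor
    · refine ⟨P / 2 - T, by linarith, fun v hv => ?_⟩
      have := harea v hv
      linarith
    · exact hratio _ (fun i => |det3 (A (e i)) (B (e i)) (U (e i))| / ‖U (e i)‖) _ T
        (fun i => by positivity) (fun i => norm_unit3 _ (hU _)) hsum (by linarith)
  · choose O hOopen hObdd hOarea hOcover using fun j : ι => open_base (U j) (C j) (A j) (B j) (hU j) (hd j) κ hκ
    set S := (1 + 2 * κ) ^ 2 * T with hS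
    have hsum : ∑ i, (μHE[2] (O (e i) ∩ {x | inner ℝ x (unit3 (U (e i))) = 0})).toReal ≤ S := by
      rw [e.sum_comp (fun j => (μHE[2] (O j ∩ {x | inner ℝ x (unit3 (U j)) = 0})).toReal)]
      calc _ ≤ ∑ j, (1 + 2 * κ) ^ 2 * (|det3 (A j) (B j) (U j)| / ‖U j‖) :=
            Finset.sum_le_sum fun j _ => hOarea j
        _ ≤ S := by
            rw [← Finset.mul_sum, hS]
            exact mul_le_mul_of_nonneg_left hTsum (by positivity)
    refine ⟨Fintype.card ι, fun i => unit3 (U (e i)),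
      fun i => O (e i) ∩ {x | inner ℝ x (unit3 (U (e i))) = 0}, fun i => norm_unit3 _ (hU _), ?_, ?_, ?_, ?_⟩
    · intro i
      exact ⟨hObdd _, O (e i), hOopen _, rfl⟩
    · intro x hx
      obtain ⟨j, b, ⟨s, hs, t, ht, rfl⟩, τ, rfl⟩ := mem_iUnion.1 (hK hx)
      obtain ⟨y, hy, τ', hτ'⟩ := hOcover j s hs t ht τ
      refine mem_iUnion.2 ⟨e.symm j, y, by simpa using hy, τ', ?_⟩
      simpa using hτ'
    · refine ⟨P / 2 - S, by linarith, fun v hv => ?_⟩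
      have := harea v hv
      linarith
    · exact hratio _ (fun i => (μHE[2] (O (e i) ∩ {x | inner ℝ x (unit3 (U (e i))) = 0})).toReal) _ S
        (fun i => ENNReal.toReal_nonneg) (fun i => norm_unit3 _ (hU _)) hsum hT

end Crest.Agent.Lib.Cyl
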