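import Crest.Agent.Lib.Cyl.Area

set_option autoImplicit false

open MeasureTheory Measure Module Set
open scoped ENNReal RealInnerProductSpace

noncomputable section

namespace Crest.Agent.Lib.Cyl

/-- The four vertices of the standard tetrahedron. -/
abbrev tA : E3 := !₂[1, 0, 0]
abbrev tB : E3 := !₂[-1, 0, 0]
abbrev tC : E3 := !₂[0, 1, Real.sqrt 2]
abbrev tD : E3 := !₂[0, -1, Real.sqrt 2]

/-- The standard tetrahedron. -/
def K₀ : Set E3 := convexHull ℝ ({tA, tB, tC, tD} : Set E3)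

lemma det3_proj3 (v A B : E3) : det3 (proj3 v A) (proj3 v B) v = det3 A B v := by
  simp only [det3, proj3, PiLp.sub_apply, PiLp.smul_apply, smul_eq_mul]
  ring

lemma det3_self_mid (a c : E3) : det3 a a c = 0 := by
  simp only [det3]; ring

lemma det3_comb (A B v : E3) (a b : ℝ) : det3 A (a • A + b • B) v = b * det3 A B v := by
  simp only [det3, PiLp.add_apply, PiLp.smul_apply, smul_eq_mul]
  ring

lemma gram2_zero_right {V : Type*} [NormedAddCommGroup V] [InnerProductSpace ℝ V] (A : V) :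
    gram2 A 0 = 0 := by
  simp [gram2]

/-- A line is null for the two-dimensional measure. -/
lemma area_line (p A : E3) : μHE[2] {x : E3 | ∃ a : ℝ, x = p + a • A} = 0 := by
  have hsub : {x : E3 | ∃ a : ℝ, x = p + a • A} ⊆
      (fun y => p + y) '' (planeMap A (0 : E3) '' univ) := by
    rintro x ⟨a, rfl⟩
    refine ⟨a • A, ⟨!₂[a, 0], mem_univ _, ?_⟩, rfl⟩
    simp
  refine measure_mono_null hsub ?_
  rw [area_translate, areaImage, normDet_planeMap, gram2_zero_right]
  simp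

/-- Two projected triangles with a common edge lying on opposite sides of the edge. -/
theorem two_tri (v p q r s : E3) (hv : v ≠ 0) (S : Set E3)
    (h1 : convexHull ℝ ({proj3 v p, proj3 v q, proj3 v r} : Set E3) ⊆ S)
    (h2 : convexHull ℝ ({proj3 v p, proj3 v q, proj3 v s} : Set E3) ⊆ S)
    (hsign : det3 (q - p) (r - p) v * det3 (q - p) (s - p) v ≤ 0) :
    ENNReal.ofReal ((|det3 (q - p) (r - p) v| + |det3 (q - p) (s - p) v|) / (2 * ‖v‖)) ≤ μHE[2] S := by
  set T₁ := convexHull ℝ ({proj3 v p, proj3 v q, proj3 v r} : Set E3) with hT₁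
  set T₂ := convexHull ℝ ({proj3 v p, proj3 v q, proj3 v s} : Set E3) with hT₂
  set Dr := det3 (q - p) (r - p) v with hDr
  set Ds := det3 (q - p) (s - p) v with hDs
  have hnv : 0 < ‖v‖ := norm_pos_iff.2 hv
  have a1 : μHE[2] T₁ = ENNReal.ofReal (|Dr| / (2 * ‖v‖)) := area_proj_tri v p q r hv
  have a2 : μHE[2] T₂ = ENNReal.ofReal (|Ds| / (2 * ‖v‖)) := area_proj_tri v p q s hv
  have hm : MeasurableSet T₂ := by
    have : ({proj3 v p, proj3 v q, proj3 v s} : Set E3).Finite := by simp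
    exact (this.isCompact_convexHull (𝕜 := ℝ)).isClosed.measurableSet
  have hI : μHE[2] (T₁ ∩ T₂) = 0 := by
    by_cases h0r : Dr = 0
    · refine measure_mono_null inter_subset_left ?_
      rw [a1, h0r]; simp
    by_cases h0s : Ds = 0
    · refine measure_mono_null inter_subset_right ?_
      rw [a2, h0s]; simp
    have hlt : Dr * Ds < 0 := lt_of_le_of_ne hsign (mul_ne_zero h0r h0s)
    refine measure_mono_null ?_ (area_line (proj3 v p) (proj3 v q - proj3 v p))
    rintro x ⟨hx1, hx2⟩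
    rw [hT₁, mem_convexHull_three_iff] at hx1
    rw [hT₂, mem_convexHull_three_iff] at hx2
    obtain ⟨a, b, ha, hb, hab, hx⟩ := hx1
    obtain ⟨a', b', ha', hb', hab', hx'⟩ := hx2
    have eD : ∀ y z : E3, det3 (proj3 v y - proj3 v z) (proj3 v r - proj3 v p) v =
        det3 (y - z) (r - p) v := by
      intro y z
      rw [← proj3_sub, ← proj3_sub, det3_proj3]
    have eD' : ∀ y z : E3, det3 (proj3 v y - proj3 v z) (proj3 v s - proj3 v p) v =
        det3 (y - z) (s - p) v := by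
      intro y z
      rw [← proj3_sub, ← proj3_sub, det3_proj3]
    have key : b * Dr = b' * Ds := by
      have e1 : det3 (proj3 v q - proj3 v p) (x - proj3 v p) v = b * Dr := by
        have : x - proj3 v p = a • (proj3 v q - proj3 v p) + b • (proj3 v r - proj3 v p) := by
          rw [hx]; abel
        rw [this, det3_comb, eD]
      have e2 : det3 (proj3 v q - proj3 v p) (x - proj3 v p) v = b' * Ds := by
        have : x - proj3 v p = a' • (proj3 v q - proj3 v p) + b' • (proj3 v s - proj3 v p) := by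
          rw [hx']; abel
        rw [this, det3_comb, eD']
      rw [← e1, e2]
    have hb0 : b = 0 := by
      by_contra hne
      have hbpos : 0 < b := lt_of_le_of_ne hb (Ne.symm hne)
      have hD2 : 0 < Dr ^ 2 := by positivity
      have : b * Dr ^ 2 = b' * (Dr * Ds) := by
        calc b * Dr ^ 2 = (b * Dr) * Dr := by ring
          _ = (b' * Ds) * Dr := by rw [key]
          _ = b' * (Dr * Ds) := by ring
      have h3 : b' * (Dr * Ds) ≤ 0 := mul_nonpos_of_nonneg_of_nonpos hb' hlt.le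
      have h4 : 0 < b * Dr ^ 2 := by positivity
      linarith
    refine ⟨a, ?_⟩
    rw [hx, hb0]
    simp
  have hU := measure_union_add_inter (μ := μHE[2]) T₁ hm
  rw [hI, add_zero, a1, a2] at hU
  have hle : μHE[2] (T₁ ∪ T₂) ≤ μHE[2] S := measure_mono (union_subset h1 h2)
  refine le_trans (le_of_eq ?_) hle
  rw [hU, ← ENNReal.ofReal_add (by positivity) (by positivity)]
  congr 1
  ring

/-- The combinatorial heart of the projection bound. -/
lemma pick_faces (n₁ n₂ n₃ n₄ : ℝ) (hs : n₁ + n₂ + n₃ + n₄ = 0)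
    (hq : n₁ ^ 2 + n₂ ^ 2 + n₃ ^ 2 + n₄ ^ 2 = 4) :
    (Real.sqrt 2 ≤ |n₁|) ∨ (Real.sqrt 2 ≤ |n₂|) ∨ (Real.sqrt 2 ≤ |n₃|) ∨ (Real.sqrt 2 ≤ |n₄|) ∨
    (0 ≤ n₁ * n₂ ∧ Real.sqrt 2 ≤ |n₁| + |n₂|) ∨ (0 ≤ n₁ * n₃ ∧ Real.sqrt 2 ≤ |n₁| + |n₃|) ∨
    (0 ≤ n₁ * n₄ ∧ Real.sqrt 2 ≤ |n₁| + |n₄|) ∨ (0 ≤ n₂ * n₃ ∧ Real.sqrt 2 ≤ |n₂| + |n₃|) ∨
    (0 ≤ n₂ * n₄ ∧ Real.sqrt 2 ≤ |n₂| + |n₄|) ∨ (0 ≤ n₃ * n₄ ∧ Real.sqrt 2 ≤ |n₃| + |n₄|) := by
  have two : ∀ a b c d : ℝ, 0 ≤ a → 0 ≤ b → c ≤ 0 → d ≤ 0 → a + b + c + d = 0 →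
      a ^ 2 + b ^ 2 + c ^ 2 + d ^ 2 = 4 → Real.sqrt 2 ≤ a + b := by
    intro a b c d ha hb hc hd h1 h2
    refine Real.sqrt_le_iff.2 ⟨by linarith, ?_⟩
    have e : a + b = -(c + d) := by linarith
    have : c * d ≥ 0 := mul_nonneg_of_nonpos_of_nonpos hc hd
    have : a * b ≥ 0 := mul_nonneg ha hb
    have : (a + b) ^ 2 + (c + d) ^ 2 = 2 * (a + b) ^ 2 := by rw [e]; ring
    nlinarith
  have one : ∀ a b c d : ℝ, 0 ≤ a → b ≤ 0 → c ≤ 0 → d ≤ 0 → a + b + c + d = 0 →
      a ^ 2 + b ^ 2 + c ^ 2 + d ^ 2 = 4 → Real.sqrt 2 ≤ a := by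
    intro a b c d ha hb hc hd h1 h2
    refine Real.sqrt_le_iff.2 ⟨ha, ?_⟩
    have e : a = -(b + c + d) := by linarith
    have h3 : b * c ≥ 0 := mul_nonneg_of_nonpos_of_nonpos hb hc
    have h4 : c * d ≥ 0 := mul_nonneg_of_nonpos_of_nonpos hc hd
    have h5 : b * d ≥ 0 := mul_nonneg_of_nonpos_of_nonpos hb hd
    have h6 : a ^ 2 = (b + c + d) ^ 2 := by rw [e]; ring
    nlinarith
  rcases le_total 0 n₁ with h1 | h1 <;> rcases le_total 0 n₂ with h2 | h2 <;>
    rcases le_total 0 n₃ with h3 | h3 <;> rcases le_total 0 n₄ with h4 | h4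
  all_goals
    first
    | (exfalso
       have e1 : n₁ = 0 := by linarith
       have e2 : n₂ = 0 := by linarith
       have e3 : n₃ = 0 := by linarith
       have e4 : n₄ = 0 := by linarith
       rw [e1, e2, e3, e4] at hq
       norm_num at hq)
    | (left; have := one n₁ n₂ n₃ n₄ h1 h2 h3 h4 hs hq; rwa [abs_of_nonneg h1])
    | (right; left; have := one n₂ n₁ n₃ n₄ h2 h1 h3 h4 (by linarith) (by linarith); rwa [abs_of_nonneg h2])
    | (right; right; left; have := one n₃ n₁ n₂ n₄ h3 h1 h2 h4 (by linarith) (by linarith); rwa [abs_of_nonneg h3])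
    | (right; right; right; left; have := one n₄ n₁ n₂ n₃ h4 h1 h2 h3 (by linarith) (by linarith); rwa [abs_of_nonneg h4])
    | (left; have := one (-n₁) (-n₂) (-n₃) (-n₄) (by linarith) (by linarith) (by linarith) (by linarith) (by linarith) (by nlinarith); rwa [abs_of_nonpos h1])
    | (right; left; have := one (-n₂) (-n₁) (-n₃) (-n₄) (by linarith) (by linarith) (by linarith) (by linarith) (by linarith) (by nlinarith); rwa [abs_of_nonpos h2])
    | (right; right; left; have := one (-n₃) (-n₁) (-n₂) (-n₄) (by linarith) (by linarith) (by linarith) (by linarith) (by linarith) (by nlinarith); rwa [abs_of_nonpos h3])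
    | (right; right; right; left; have := one (-n₄) (-n₁) (-n₂) (-n₃) (by linarith) (by linarith) (by linarith) (by linarith) (by linarith) (by nlinarith); rwa [abs_of_nonpos h4])
    | (right; right; right; right; left
       refine ⟨mul_nonneg h1 h2, ?_⟩
       have := two n₁ n₂ n₃ n₄ h1 h2 h3 h4 hs hq
       rwa [abs_of_nonneg h1, abs_of_nonneg h2])
    | (right; right; right; right; right; left
       refine ⟨mul_nonneg h1 h3, ?_⟩
       have := two n₁ n₃ n₂ n₄ h1 h3 h2 h4 (by linarith) (by linarith)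
       rwa [abs_of_nonneg h1, abs_of_nonneg h3])
    | (right; right; right; right; right; right; left
       refine ⟨mul_nonneg h1 h4, ?_⟩
       have := two n₁ n₄ n₂ n₃ h1 h4 h2 h3 (by linarith) (by linarith)
       rwa [abs_of_nonneg h1, abs_of_nonneg h4])
    | (right; right; right; right; right; right; right; left
       refine ⟨mul_nonneg h2 h3, ?_⟩
       have := two n₂ n₃ n₁ n₄ h2 h3 h1 h4 (by linarith) (by linarith)
       rwa [abs_of_nonneg h2, abs_of_nonneg h3])
    | (right; right; right; right; right; right; right; right; left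
       refine ⟨mul_nonneg h2 h4, ?_⟩
       have := two n₂ n₄ n₁ n₃ h2 h4 h1 h3 (by linarith) (by linarith)
       rwa [abs_of_nonneg h2, abs_of_nonneg h4])
    | (right; right; right; right; right; right; right; right; right
       refine ⟨mul_nonneg h3 h4, ?_⟩
       have := two n₃ n₄ n₁ n₂ h3 h4 h1 h2 (by linarith) (by linarith)
       rwa [abs_of_nonneg h3, abs_of_nonneg h4])

lemma proj_tri_subset (v p q r : E3) (S : Set E3) (hS : Convex ℝ S) (hp : p ∈ S) (hq : q ∈ S) (hr : r ∈ S) :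
    convexHull ℝ ({proj3 v p, proj3 v q, proj3 v r} : Set E3) ⊆ proj3 v '' S := by
  intro x hx
  rw [mem_convexHull_three_iff] at hx
  obtain ⟨a, b, ha, hb, hab, rfl⟩ := hx
  refine ⟨(1 - a - b) • p + a • q + b • r, ?_, ?_⟩
  · have h1 := hS hq hr (by positivity : (0:ℝ) ≤ a) hb
    by_cases h0 : a + b = 0
    · have ha0 : a = 0 := by linarith
      have hb0 : b = 0 := by linarith
      simp [ha0, hb0, hp]
    · have hpos : 0 < a + b := lt_of_le_of_ne (by positivity) (Ne.symm h0)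
      have h2 := hS hq hr (a := a / (a + b)) (b := b / (a + b)) (by positivity) (by positivity)
        (by field_simp)
      have h3 := hS hp h2 (a := 1 - a - b) (b := a + b) (by linarith) hpos.le (by ring)
      convert h3 using 1
      rw [smul_add, smul_smul, smul_smul]
      have e1 : (a + b) * (a / (a + b)) = a := by field_simp
      have e2 : (a + b) * (b / (a + b)) = b := by field_simp
      rw [e1, e2, add_assoc]
  · rw [proj3_add, proj3_add, proj3_smul, proj3_smul, proj3_smul]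
    have : (1 - a - b) • proj3 v p + a • proj3 v q + b • proj3 v r =
        proj3 v p + a • (proj3 v q - proj3 v p) + b • (proj3 v r - proj3 v p) := by module
    rw [this]

lemma sq_sqrt_two : Real.sqrt 2 ^ 2 = 2 := Real.sq_sqrt (by norm_num)

lemma convex_K₀ : Convex ℝ K₀ := convex_convexHull ℝ _
lemma tA_mem : tA ∈ K₀ := subset_convexHull ℝ _ (by simp)
lemma tB_mem : tB ∈ K₀ := subset_convexHull ℝ _ (by simp)
lemma tC_mem : tC ∈ K₀ := subset_convexHull ℝ _ (by simp)
lemma tD_mem : tD ∈ K₀ := subset_convexHull ℝ _ (by simp)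

/-- The four determinants. -/
lemma det_abc (v : E3) : det3 (tB - tA) (tC - tA) v = 2 * (Real.sqrt 2 * v 1 - v 2) := by
  simp [det3]; ring
lemma det_abd (v : E3) : det3 (tB - tA) (tD - tA) v = 2 * (Real.sqrt 2 * v 1 + v 2) := by
  simp [det3]; ring
lemma det_acd (v : E3) : det3 (tC - tA) (tD - tA) v = 2 * (Real.sqrt 2 * v 0 + v 2) := by
  simp [det3]; ring
lemma det_bcd (v : E3) : det3 (tC - tB) (tD - tB) v = 2 * (Real.sqrt 2 * v 0 - v 2) := by
  simp [det3]; ring

/-- Every orthogonal projection of the standard tetrahedron has area at least `√2`. -/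
theorem area_proj_K₀_ge (v : E3) (hv : ‖v‖ = 1) :
    ENNReal.ofReal (Real.sqrt 2) ≤ μHE[2] (proj3 v '' K₀) := by
  have hv0 : v ≠ 0 := by
    intro h; rw [h] at hv; simp at hv
  set S := proj3 v '' K₀ with hS
  set s := Real.sqrt 2 with hs
  have hs2 : s ^ 2 = 2 := sq_sqrt_two
  set n₁ := s * v 1 - v 2 with hn₁
  set n₂ := -(s * v 1 + v 2) with hn₂
  set n₃ := s * v 0 + v 2 with hn₃
  set n₄ := -(s * v 0 - v 2) with hn₄
  have hsum : n₁ + n₂ + n₃ + n₄ = 0 := by simp only [hn₁, hn₂, hn₃, hn₄]; ring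
  have hvv : v 0 ^ 2 + v 1 ^ 2 + v 2 ^ 2 = 1 := by rw [← normsq3, hv]; norm_num
  have hsq : n₁ ^ 2 + n₂ ^ 2 + n₃ ^ 2 + n₄ ^ 2 = 4 := by
    simp only [hn₁, hn₂, hn₃, hn₄]
    have : (s * v 1 - v 2) ^ 2 + (-(s * v 1 + v 2)) ^ 2 + (s * v 0 + v 2) ^ 2 + (-(s * v 0 - v 2)) ^ 2
        = 2 * s ^ 2 * (v 0 ^ 2 + v 1 ^ 2) + 4 * v 2 ^ 2 := by ring
    rw [this, hs2]
    nlinarith
  -- single faces
  have tri : ∀ p q r : E3, p ∈ K₀ → q ∈ K₀ → r ∈ K₀ →
      ENNReal.ofReal (|det3 (q - p) (r - p) v| / 2) ≤ μHE[2] S := by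
    intro p q r hp hq hr
    have h := area_proj_tri v p q r hv0
    rw [hv, mul_one] at h
    rw [← h]
    exact measure_mono (proj_tri_subset v p q r K₀ convex_K₀ hp hq hr)
  have pair : ∀ p q r t : E3, p ∈ K₀ → q ∈ K₀ → r ∈ K₀ → t ∈ K₀ →
      det3 (q - p) (r - p) v * det3 (q - p) (t - p) v ≤ 0 →
      ENNReal.ofReal ((|det3 (q - p) (r - p) v| + |det3 (q - p) (t - p) v|) / 2) ≤ μHE[2] S := by
    intro p q r t hp hq hr ht hsign
    have h := two_tri v p q r t hv0 S (proj_tri_subset v p q r K₀ convex_K₀ hp hq hr)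
      (proj_tri_subset v p q t K₀ convex_K₀ hp hq ht) hsign
    rwa [hv, mul_one] at h
  have e_abc : det3 (tB - tA) (tC - tA) v = 2 * n₁ := det_abc v
  have e_abd : det3 (tB - tA) (tD - tA) v = -(2 * n₂) := by rw [det_abd, hn₂]; ring
  have e_acd : det3 (tC - tA) (tD - tA) v = 2 * n₃ := det_acd v
  have e_bcd : det3 (tC - tB) (tD - tB) v = -(2 * n₄) := by rw [det_bcd, hn₄]; ring
  have e_acb : det3 (tC - tA) (tB - tA) v = -(2 * n₁) := by
    rw [← e_abc]; simp only [det3]; ring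
  have e_adb : det3 (tD - tA) (tB - tA) v = 2 * n₂ := by
    have : det3 (tD - tA) (tB - tA) v = - det3 (tB - tA) (tD - tA) v := by simp only [det3]; ring
    rw [this, e_abd]; ring
  have e_adc : det3 (tD - tA) (tC - tA) v = -(2 * n₃) := by
    rw [← e_acd]; simp only [det3]; ring
  have e_bca : det3 (tC - tB) (tA - tB) v = 2 * n₁ := by
    simp [det3, hn₁]; ring
  have e_bda : det3 (tD - tB) (tA - tB) v = -(2 * n₂) := by
    simp [det3, hn₂]; ring
  have e_bdc : det3 (tD - tB) (tC - tB) v = 2 * n₄ := by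
    have : det3 (tD - tB) (tC - tB) v = - det3 (tC - tB) (tD - tB) v := by simp only [det3]; ring
    rw [this, e_bcd]; ring
  have e_cda : det3 (tD - tC) (tA - tC) v = 2 * n₃ := by
    simp [det3, hn₃]; ring
  have e_cdb : det3 (tD - tC) (tB - tC) v = -(2 * n₄) := by
    simp [det3, hn₄]; ring
  have abs2 : ∀ x : ℝ, |2 * x| / 2 = |x| := by
    intro x; rw [abs_mul]; simp
  have absn2 : ∀ x : ℝ, |-(2 * x)| / 2 = |x| := by
    intro x; rw [abs_neg, abs2]
  have abs2' : ∀ x y : ℝ, (|2 * x| + |-(2 * y)|) / 2 = |x| + |y| := by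
    intro x y; rw [abs_neg, abs_mul, abs_mul]; simp; ring
  have abs2'' : ∀ x y : ℝ, (|-(2 * x)| + |2 * y|) / 2 = |x| + |y| := by
    intro x y; rw [abs_neg, abs_mul, abs_mul]; simp; ring
  have s1 : ENNReal.ofReal |n₁| ≤ μHE[2] S := by
    have := tri tA tB tC tA_mem tB_mem tC_mem
    rwa [e_abc, abs2] at this
  have s2 : ENNReal.ofReal |n₂| ≤ μHE[2] S := by
    have := tri tA tB tD tA_mem tB_mem tD_mem
    rwa [e_abd, absn2] at this
  have s3 : ENNReal.ofReal |n₃| ≤ μHE[2] S := by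
    have := tri tA tC tD tA_mem tC_mem tD_mem
    rwa [e_acd, abs2] at this
  have s4 : ENNReal.ofReal |n₄| ≤ μHE[2] S := by
    have := tri tB tC tD tB_mem tC_mem tD_mem
    rwa [e_bcd, absn2] at this
  have neg4 : ∀ a b : ℝ, 0 ≤ a * b → 2 * a * -(2 * b) ≤ 0 := by
    intro a b h; nlinarith
  have neg4' : ∀ a b : ℝ, 0 ≤ a * b → -(2 * a) * (2 * b) ≤ 0 := by
    intro a b h; nlinarith
  rcases pick_faces n₁ n₂ n₃ n₄ hsum hsq with h | h | h | h | ⟨h0, h⟩ | ⟨h0, h⟩ | ⟨h0, h⟩ | ⟨h0, h⟩ | ⟨h0, h⟩ | ⟨h0, h⟩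
  · exact (ENNReal.ofReal_le_ofReal h).trans s1
  · exact (ENNReal.ofReal_le_ofReal h).trans s2
  · exact (ENNReal.ofReal_le_ofReal h).trans s3
  · exact (ENNReal.ofReal_le_ofReal h).trans s4
  · -- faces abc, abd : common edge ab
    refine (ENNReal.ofReal_le_ofReal h).trans ?_
    have := pair tA tB tC tD tA_mem tB_mem tC_mem tD_mem (by rw [e_abc, e_abd]; exact neg4 _ _ h0)
    rwa [e_abc, e_abd, abs2'] at this
  · -- faces abc, acd : common edge ac
    refine (ENNReal.ofReal_le_ofReal h).trans ?_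
    have := pair tA tC tB tD tA_mem tC_mem tB_mem tD_mem (by rw [e_acb, e_acd]; exact neg4' _ _ h0)
    rwa [e_acb, e_acd, abs2''] at this
  · -- faces abc, bcd : common edge bc
    refine (ENNReal.ofReal_le_ofReal h).trans ?_
    have := pair tB tC tA tD tB_mem tC_mem tA_mem tD_mem (by rw [e_bca, e_bcd]; exact neg4 _ _ h0)
    rwa [e_bca, e_bcd, abs2'] at this
  · -- faces abd, acd : common edge ad
    refine (ENNReal.ofReal_le_ofReal h).trans ?_
    have := pair tA tD tB tC tA_mem tD_mem tB_mem tC_mem (by rw [e_adb, e_adc]; exact neg4 _ _ h0)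
    rwa [e_adb, e_adc, abs2'] at this
  · -- faces abd, bcd : common edge bd
    refine (ENNReal.ofReal_le_ofReal h).trans ?_
    have := pair tB tD tA tC tB_mem tD_mem tA_mem tC_mem (by rw [e_bda, e_bdc]; exact neg4' _ _ h0)
    rwa [e_bda, e_bdc, abs2''] at this
  · -- faces acd, bcd : common edge cd
    refine (ENNReal.ofReal_le_ofReal h).trans ?_
    have := pair tC tD tA tB tC_mem tD_mem tA_mem tB_mem (by rw [e_cda, e_cdb]; exact neg4 _ _ h0)
    rwa [e_cda, e_cdb, abs2'] at this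

end Crest.Agent.Lib.Cyl
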